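import Mathlib
import Crest.Prelude.Def_MultiMarginal
import Crest.Agent.Lib.Transport.Basic

/-!
The measure-theoretic part of the "bowtie" construction.
-/

set_option autoImplicit false

open MeasureTheory Set Filter Metric
open scoped ENNReal Topology
open Crest.AnalysisR.OT

namespace Crest.Agent.R130

variable {E : Type*} [NormedAddCommGroup E]

theorem pairCost_comm (s : ℝ) (x y : E) : pairCost s x y = pairCost s y x := by
  simp [pairCost, norm_sub_rev]

theorem tripleCost_cyc (s : ℝ) (x y z : E) : tripleCost s (y, z, x) = tripleCost s (x, y, z) := by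
  simp only [tripleCost, pairCost_comm s y x, pairCost_comm s z x]
  ring

theorem tripleCost_swap (s : ℝ) (x y z : E) : tripleCost s (x, z, y) = tripleCost s (x, y, z) := by
  simp only [tripleCost, pairCost_comm s z y]
  ring

theorem continuous_pairCost (s : ℝ) : Continuous fun p : E × E => pairCost s p.1 p.2 :=
  ENNReal.continuous_rpow_const.comp (ENNReal.continuous_ofReal.comp (by fun_prop))

theorem continuous_tripleCost (s : ℝ) : Continuous (tripleCost (E := E) s) := by
  unfold tripleCost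
  have h := continuous_pairCost (E := E) s
  exact ((h.comp (f := fun p : E × E × E => (p.1, p.2.1)) (by fun_prop)).add
    (h.comp (f := fun p : E × E × E => (p.1, p.2.2)) (by fun_prop))).add
    (h.comp (f := fun p : E × E × E => (p.2.1, p.2.2)) (by fun_prop))

theorem pairCost_ne_top (s : ℝ) {x y : E} (h : x ≠ y) : pairCost s x y ≠ ⊤ := by
  have : 0 < ‖x - y‖ := norm_pos_iff.2 (sub_ne_zero.2 h)
  rw [pairCost, ENNReal.ofReal_rpow_of_pos this]
  exact ENNReal.ofReal_ne_top

theorem tripleCost_ne_top (s : ℝ) {x y z : E} (h1 : x ≠ y) (h2 : x ≠ z) (h3 : y ≠ z) :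
    tripleCost s (x, y, z) ≠ ⊤ :=
  ENNReal.add_ne_top.2 ⟨ENNReal.add_ne_top.2 ⟨pairCost_ne_top s h1, pairCost_ne_top s h2⟩,
    pairCost_ne_top s h3⟩

/-- uniform upper semicontinuity in the first variable -/
theorem exists_delta (s : ℝ) {K : Set E} (hK : IsCompact K) {b c : E → E}
    (hb : ContinuousOn b K) (hc : ContinuousOn c K)
    (hfin : ∀ a ∈ K, tripleCost s (a, b a, c a) ≠ ⊤) {ε : ℝ≥0∞} (hε : ε ≠ 0) :
    ∃ δ > 0, ∀ a ∈ K, ∀ a' ∈ K, dist a' a ≤ δ →
      tripleCost s (a', b a, c a) ≤ tripleCost s (a, b a, c a) + ε := by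
  have hKK : IsCompact (K ×ˢ K) := hK.prod hK
  have hb2 : ContinuousOn (fun p : E × E => b p.2) (K ×ˢ K) :=
    hb.comp continuous_snd.continuousOn fun p hp => hp.2
  have hc2 : ContinuousOn (fun p : E × E => c p.2) (K ×ˢ K) :=
    hc.comp continuous_snd.continuousOn fun p hp => hp.2
  have c1 : ContinuousOn (fun p : E × E => tripleCost s (p.2, b p.2, c p.2) + ε) (K ×ˢ K) :=
    ((continuous_tripleCost s).comp_continuousOn
      (continuous_snd.continuousOn.prodMk (hb2.prodMk hc2))).add continuousOn_const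
  have c2 : ContinuousOn (fun p : E × E => tripleCost s (p.1, b p.2, c p.2)) (K ×ˢ K) :=
    (continuous_tripleCost s).comp_continuousOn
      (continuous_fst.continuousOn.prodMk (hb2.prodMk hc2))
  have hW : IsClosed {p ∈ K ×ˢ K |
      tripleCost s (p.2, b p.2, c p.2) + ε ≤ tripleCost s (p.1, b p.2, c p.2)} :=
    hKK.isClosed.isClosed_le c1 c2
  have hWc := hKK.of_isClosed_subset hW (sep_subset _ _)
  rcases eq_empty_or_nonempty {p ∈ K ×ˢ K |
      tripleCost s (p.2, b p.2, c p.2) + ε ≤ tripleCost s (p.1, b p.2, c p.2)} with he | hne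
  · refine ⟨1, one_pos, fun a ha a' ha' _ => ?_⟩
    by_contra h
    have : (a', a) ∈ {p ∈ K ×ˢ K |
      tripleCost s (p.2, b p.2, c p.2) + ε ≤ tripleCost s (p.1, b p.2, c p.2)} :=
      ⟨⟨ha', ha⟩, (not_le.1 h).le⟩
    rw [he] at this
    exact this
  · obtain ⟨p, hp, hmin⟩ := hWc.exists_isMinOn hne
      (f := fun p : E × E => dist p.1 p.2) (by fun_prop)
    have hpos : 0 < dist p.1 p.2 := by
      rw [dist_pos]
      intro h
      have h2 := hp.2
      rw [h] at h2
      exact absurd h2 (not_le.2 (ENNReal.lt_add_right (hfin _ hp.1.2) hε))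
    refine ⟨dist p.1 p.2 / 2, half_pos hpos, fun a ha a' ha' hd => ?_⟩
    by_contra h
    have : (a', a) ∈ {p ∈ K ×ˢ K |
      tripleCost s (p.2, b p.2, c p.2) + ε ≤ tripleCost s (p.1, b p.2, c p.2)} :=
      ⟨⟨ha', ha⟩, (not_le.1 h).le⟩
    have h3 : dist p.1 p.2 ≤ dist a' a := hmin this
    linarith

variable [MeasurableSpace E] [BorelSpace E] [SecondCountableTopology E]

theorem measurable_tripleCost (s : ℝ) : Measurable (tripleCost (E := E) s) :=
  (continuous_tripleCost s).measurable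

/-- the cyclically symmetrised plan on the graph of `(b, c)` -/
noncomputable def cycPlan (η : Measure E) (b c : E → E) : Measure (E × E × E) :=
  η.map (fun a => (a, b a, c a)) + η.map (fun a => (b a, c a, a)) + η.map (fun a => (c a, a, b a))

omit [NormedAddCommGroup E] [BorelSpace E] [SecondCountableTopology E] in
theorem cycPlan_coupling (η : Measure E) {b c : E → E} (hb : Measurable b) (hc : Measurable c) :
    IsCoupling₃ (η + η.map b + η.map c) (cycPlan η b c) := by
  refine ⟨?_, ?_, ?_⟩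
  all_goals
    rw [cycPlan, Measure.map_add _ _ (by fun_prop), Measure.map_add _ _ (by fun_prop),
      Measure.map_map (by fun_prop) (by fun_prop), Measure.map_map (by fun_prop) (by fun_prop),
      Measure.map_map (by fun_prop) (by fun_prop)]
    simp only [Function.comp_def, Measure.map_id']
  all_goals abel

theorem cycPlan_cost (s : ℝ) (η : Measure E) {b c : E → E} (hb : Measurable b)
    (hc : Measurable c) :
    ∫⁻ p, tripleCost s p ∂(cycPlan η b c) = 3 * ∫⁻ a, tripleCost s (a, b a, c a) ∂η := by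
  have hm := measurable_tripleCost (E := E) s
  rw [cycPlan, lintegral_add_measure, lintegral_add_measure, lintegral_map hm (by fun_prop),
    lintegral_map hm (by fun_prop), lintegral_map hm (by fun_prop)]
  have h1 : ∀ a, tripleCost s (b a, c a, a) = tripleCost s (a, b a, c a) := fun a =>
    tripleCost_cyc s _ _ _
  have h2 : ∀ a, tripleCost s (c a, a, b a) = tripleCost s (a, b a, c a) := fun a =>
    (tripleCost_cyc s _ _ _).symm
  simp only [h1, h2]
  ring

omit [NormedAddCommGroup E] [BorelSpace E] [SecondCountableTopology E] in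
theorem IsCoupling₃_add {μ ν : Measure E} {π ρ : Measure (E × E × E)} (h1 : IsCoupling₃ μ π)
    (h2 : IsCoupling₃ ν ρ) : IsCoupling₃ (μ + ν) (π + ρ) := by
  refine ⟨?_, ?_, ?_⟩
  · rw [Measure.map_add _ _ (by fun_prop), h1.1, h2.1]
  · rw [Measure.map_add _ _ (by fun_prop), h1.2.1, h2.2.1]
  · rw [Measure.map_add _ _ (by fun_prop), h1.2.2, h2.2.2]

omit [NormedAddCommGroup E] [BorelSpace E] [SecondCountableTopology E] in
theorem lintegral_potential {μ : Measure E} {π : Measure (E × E × E)} (h : IsCoupling₃ μ π)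
    {u : E → ℝ≥0∞} (hu : Measurable u) :
    ∫⁻ p, (u p.1 + u p.2.1 + u p.2.2) ∂π = 3 * ∫⁻ x, u x ∂μ := by
  rw [lintegral_add_left (by fun_prop), lintegral_add_left (by fun_prop)]
  have h1 : ∫⁻ p, u p.1 ∂π = ∫⁻ x, u x ∂μ := by
    rw [← h.1, lintegral_map hu (by fun_prop)]
  have h2 : ∫⁻ p, u p.2.1 ∂π = ∫⁻ x, u x ∂μ := by
    rw [← h.2.1, lintegral_map hu (by fun_prop)]
  have h3 : ∫⁻ p, u p.2.2 ∂π = ∫⁻ x, u x ∂μ := by
    rw [← h.2.2, lintegral_map hu (by fun_prop)]
  rw [h1, h2, h3]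
  ring

/-- one half of the approximating Monge plan -/
theorem half_plan (s : ℝ) (η ν : Measure E) {K : Set E}
    (hη : ∀ᵐ a ∂η, a ∈ K) (hν : ∀ᵐ a ∂ν, a ∈ K)
    {b c S S' T₂ T₃ : E → E} (hb : Measurable b) (hc : Measurable c) (hS : Measurable S)
    (hS' : Measurable S') (hT₂ : Measurable T₂) (hT₃ : Measurable T₃)
    (hSm : ν.map S = η) (hSm' : η.map S' = ν) {δ : ℝ} {ε : ℝ≥0∞}
    (hSd : ∀ᵐ x ∂ν, dist (S x) x ≤ δ) (hSd' : ∀ᵐ x ∂η, dist (S' x) x ≤ δ)
    (hδ : ∀ a ∈ K, ∀ a' ∈ K, dist a' a ≤ δ →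
      tripleCost s (a', b a, c a) ≤ tripleCost s (a, b a, c a) + ε)
    (h0 : ∀ᵐ a ∂ν, T₂ a = b (S a) ∧ T₃ a = c (S a))
    (h1 : ∀ a ∈ K, T₂ (b a) = c a ∧ T₃ (b a) = S' a)
    (h2 : ∀ a ∈ K, T₂ (c a) = S' a ∧ T₃ (c a) = b a) :
    (ν + η.map b + η.map c).map T₂ = ν + η.map b + η.map c ∧
    (ν + η.map b + η.map c).map T₃ = ν + η.map b + η.map c ∧
    ∫⁻ x, tripleCost s (x, T₂ x, T₃ x) ∂(ν + η.map b + η.map c) ≤
      3 * (∫⁻ a, tripleCost s (a, b a, c a) ∂η + ε * η univ) := by
  have hm := measurable_tripleCost (E := E) s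
  refine ⟨?_, ?_, ?_⟩
  · rw [Measure.map_add _ _ hT₂, Measure.map_add _ _ hT₂, Measure.map_map hT₂ hb,
      Measure.map_map hT₂ hc,
      Measure.map_congr (f := T₂) (g := b ∘ S) (h0.mono fun a ha => ha.1),
      Measure.map_congr (f := T₂ ∘ b) (g := c) (hη.mono fun a ha => (h1 a ha).1),
      Measure.map_congr (f := T₂ ∘ c) (g := S') (hη.mono fun a ha => (h2 a ha).1),
      ← Measure.map_map hb hS, hSm, hSm']
    abel
  · rw [Measure.map_add _ _ hT₃, Measure.map_add _ _ hT₃, Measure.map_map hT₃ hb,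
      Measure.map_map hT₃ hc,
      Measure.map_congr (f := T₃) (g := c ∘ S) (h0.mono fun a ha => ha.2),
      Measure.map_congr (f := T₃ ∘ b) (g := S') (hη.mono fun a ha => (h1 a ha).2),
      Measure.map_congr (f := T₃ ∘ c) (g := b) (hη.mono fun a ha => (h2 a ha).2),
      ← Measure.map_map hc hS, hSm, hSm']
    abel
  · have hm' : Measurable fun x => tripleCost s (x, T₂ x, T₃ x) := hm.comp (by fun_prop)
    have hm2 : Measurable fun a => tripleCost s (a, b a, c a) := hm.comp (by fun_prop)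
    have hSK : ∀ᵐ a ∂ν, S a ∈ K := ae_of_ae_map hS.aemeasurable (hSm ▸ hη)
    have hSK' : ∀ᵐ a ∂η, S' a ∈ K := ae_of_ae_map hS'.aemeasurable (hSm' ▸ hν)
    have hI : ∫⁻ a, (tripleCost s (a, b a, c a) + ε) ∂η =
        ∫⁻ a, tripleCost s (a, b a, c a) ∂η + ε * η univ := by
      rw [lintegral_add_right _ measurable_const, lintegral_const]
    have e0 : ∫⁻ x, tripleCost s (x, T₂ x, T₃ x) ∂ν ≤
        ∫⁻ a, (tripleCost s (a, b a, c a) + ε) ∂η := by
      rw [← hSm, lintegral_map (hm2.add_const ε) hS]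
      refine lintegral_mono_ae ?_
      filter_upwards [h0, hν, hSK, hSd] with a ha haK hSa hd
      rw [ha.1, ha.2]
      exact hδ _ hSa _ haK (by rwa [dist_comm])
    have e1 : ∫⁻ x, tripleCost s (x, T₂ x, T₃ x) ∂(η.map b) ≤
        ∫⁻ a, (tripleCost s (a, b a, c a) + ε) ∂η := by
      rw [lintegral_map hm' hb]
      refine lintegral_mono_ae ?_
      filter_upwards [hη, hSK', hSd'] with a haK hSa hd
      rw [(h1 a haK).1, (h1 a haK).2, tripleCost_cyc]
      exact hδ _ haK _ hSa hd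
    have e2 : ∫⁻ x, tripleCost s (x, T₂ x, T₃ x) ∂(η.map c) ≤
        ∫⁻ a, (tripleCost s (a, b a, c a) + ε) ∂η := by
      rw [lintegral_map hm' hc]
      refine lintegral_mono_ae ?_
      filter_upwards [hη, hSK', hSd'] with a haK hSa hd
      rw [(h2 a haK).1, (h2 a haK).2, ← tripleCost_cyc]
      exact hδ _ haK _ hSa hd
    rw [lintegral_add_measure, lintegral_add_measure, ← hI]
    calc _ ≤ _ := add_le_add (add_le_add e0 e1) e2
      _ = _ := by ring

theorem exists_leftInverse [CompleteSpace E] {K : Set E} (hKm : MeasurableSet K)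
    {f : Fin 5 → E → E} (hf : ∀ i, Measurable (f i))
    (hinj : ∀ i j, ∀ a ∈ K, ∀ a' ∈ K, f i a = f j a' → i = j ∧ a = a') :
    ∃ G : E → Fin 5 × E, Measurable G ∧ ∀ i, ∀ a ∈ K, G (f i a) = (i, a) := by
  let S : Set (Fin 5 × E) := univ ×ˢ K
  have hS : MeasurableSet S := MeasurableSet.univ.prod hKm
  have := hS.standardBorel
  have hF : Measurable fun p : Fin 5 × E => f p.1 p.2 :=
    measurable_from_prod_countable_right fun i => hf i
  have hFS : Measurable fun p : S => f p.1.1 p.1.2 := hF.comp measurable_subtype_coe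
  have hFi : Function.Injective fun p : S => f p.1.1 p.1.2 := by
    rintro ⟨⟨i, a⟩, ha⟩ ⟨⟨j, a'⟩, ha'⟩ h
    obtain ⟨rfl, rfl⟩ := hinj i j a ha.2 a' ha'.2 h
    rfl
  have hemb := hFS.measurableEmbedding hFi
  refine ⟨Function.extend (fun p : S => f p.1.1 p.1.2) Subtype.val (fun _ => (0, 0)),
    hemb.measurable_extend measurable_subtype_coe measurable_const, fun i a ha => ?_⟩
  exact hFi.extend_apply Subtype.val (fun _ => (0, 0)) ⟨(i, a), mem_univ _, ha⟩

end Crest.Agent.R130
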