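import Crest.Agent.R130.Abstract

/-!
The abstract bowtie theorem.
-/

set_option autoImplicit false

open MeasureTheory Set Filter Metric
open scoped ENNReal Topology
open Crest.AnalysisR.OT

namespace Crest.Agent.R130

variable {E : Type*} [NormedAddCommGroup E] [MeasurableSpace E] [BorelSpace E]
  [SecondCountableTopology E] [CompleteSpace E]

theorem bowtie (s : ℝ) {K : Set E} (hK : IsCompact K) (η : Measure E) [IsFiniteMeasure η]
    [NullSingletonClass η] (hη0 : η ≠ 0) (hη : ∀ᵐ a ∂η, a ∈ K)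
    (f : Fin 5 → E → E) (hf : ∀ i, Measurable (f i)) (hf0 : f 0 = id)
    (hfc : ∀ i, ContinuousOn (f i) K)
    (hinj : ∀ i j, ∀ a ∈ K, ∀ a' ∈ K, f i a = f j a' → i = j ∧ a = a')
    (v : Fin 5 → E → ℝ≥0∞) (hv : ∀ i, Measurable (v i))
    (hineq : ∀ i j k, ∀ a₁ ∈ K, ∀ a₂ ∈ K, ∀ a₃ ∈ K,
      v i a₁ + v j a₂ + v k a₃ ≤ tripleCost s (f i a₁, f j a₂, f k a₃))
    (heq1 : ∀ a ∈ K, v 0 a + v 1 a + v 2 a = tripleCost s (a, f 1 a, f 2 a))
    (heq2 : ∀ a ∈ K, v 0 a + v 3 a + v 4 a = tripleCost s (a, f 3 a, f 4 a))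
    (hrigid : ∀ j k, ∀ a₁ ∈ K, ∀ a₂ ∈ K, ∀ a₃ ∈ K,
      tripleCost s (a₁, f j a₂, f k a₃) ≤ v 0 a₁ + v j a₂ + v k a₃ → j ≠ 0 ∧ a₂ = a₁)
    (μ : Measure E)
    (hμ : μ = (η + η.map (f 1) + η.map (f 2)) + (η + η.map (f 3) + η.map (f 4))) :
    ∃ π₀ : Measure (E × E × E),
        IsCoupling₃ μ π₀ ∧ ∫⁻ p, tripleCost s p ∂π₀ < ⊤ ∧
        (∀ π : Measure (E × E × E), IsCoupling₃ μ π →
          ∫⁻ p, tripleCost s p ∂π₀ ≤ ∫⁻ p, tripleCost s p ∂π) ∧
        (∀ T₂ T₃ : E → E, Measurable T₂ → Measurable T₃ →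
          μ.map T₂ = μ → μ.map T₃ = μ →
          ∫⁻ p, tripleCost s p ∂π₀ < ∫⁻ x, tripleCost s (x, T₂ x, T₃ x) ∂μ) ∧
        (∀ ε : ℝ≥0∞, 0 < ε → ∃ T₂ T₃ : E → E, Measurable T₂ ∧ Measurable T₃ ∧
          μ.map T₂ = μ ∧ μ.map T₃ = μ ∧
          ∫⁻ x, tripleCost s (x, T₂ x, T₃ x) ∂μ < ∫⁻ p, tripleCost s p ∂π₀ + ε) := by
  classical
  have hKm : MeasurableSet K := hK.isClosed.measurableSet
  have hm := measurable_tripleCost (E := E) s
  obtain ⟨G, hG, hGf⟩ := exists_leftInverse hKm hf hinj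
  have hG0 : ∀ a ∈ K, G a = (0, a) := fun a ha => by simpa [hf0] using hGf 0 a ha
  have hF : Measurable fun p : Fin 5 × E => f p.1 p.2 :=
    measurable_from_prod_countable_right fun i => hf i
  have hV : Measurable fun p : Fin 5 × E => v p.1 p.2 :=
    measurable_from_prod_countable_right fun i => hv i
  let u : E → ℝ≥0∞ := fun x => v (G x).1 (G x).2
  have hu : Measurable u := hV.comp hG
  have hne : ∀ i j, i ≠ j → ∀ a ∈ K, f i a ≠ f j a := fun i j hij a ha h =>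
    hij (hinj i j a ha a ha h).1
  have hfin : ∀ j k, j ≠ 0 → k ≠ 0 → j ≠ k → ∀ a ∈ K, tripleCost s (a, f j a, f k a) ≠ ⊤ :=
    fun j k hj hk hjk a ha => tripleCost_ne_top s (by simpa [hf0] using hne 0 j hj.symm a ha)
      (by simpa [hf0] using hne 0 k hk.symm a ha) (hne j k hjk a ha)
  have hIfin : ∀ j k, j ≠ 0 → k ≠ 0 → j ≠ k → ∫⁻ a, tripleCost s (a, f j a, f k a) ∂η ≠ ⊤ := by
    intro j k hj hk hjk
    rcases K.eq_empty_or_nonempty with rfl | hKne
    · have : η = 0 := by simpa using hη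
      exact absurd this hη0
    obtain ⟨a₀, ha₀, hmax⟩ := hK.exists_isMaxOn hKne
      (f := fun a => tripleCost s (a, f j a, f k a))
      ((continuous_tripleCost s).comp_continuousOn
        (continuousOn_id.prodMk ((hfc j).prodMk (hfc k))))
    refine ne_top_of_le_ne_top (b := ∫⁻ _, tripleCost s (a₀, f j a₀, f k a₀) ∂η) ?_
      (lintegral_mono_ae (hη.mono fun a ha => hmax ha))
    rw [lintegral_const]
    exact ENNReal.mul_ne_top (hfin j k hj hk hjk a₀ ha₀) (measure_ne_top _ _)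
  set I₁ := ∫⁻ a, tripleCost s (a, f 1 a, f 2 a) ∂η with hI₁
  set I₂ := ∫⁻ a, tripleCost s (a, f 3 a, f 4 a) ∂η with hI₂
  have hI₁f : I₁ ≠ ⊤ := hIfin 1 2 (by decide) (by decide) (by decide)
  have hI₂f : I₂ ≠ ⊤ := hIfin 3 4 (by decide) (by decide) (by decide)
  have hcost : ∫⁻ p, tripleCost s p ∂(cycPlan η (f 1) (f 2) + cycPlan η (f 3) (f 4)) =
      3 * (I₁ + I₂) := by
    rw [lintegral_add_measure, cycPlan_cost s η (hf 1) (hf 2), cycPlan_cost s η (hf 3) (hf 4),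
      mul_add]
  have hD : 3 * (I₁ + I₂) ≠ ⊤ := ENNReal.mul_ne_top (by simp) (ENNReal.add_ne_top.2 ⟨hI₁f, hI₂f⟩)
  have hui : ∀ i, ∫⁻ x, u x ∂(η.map (f i)) = ∫⁻ a, v i a ∂η := fun i => by
    rw [lintegral_map hu (hf i)]
    refine lintegral_congr_ae (hη.mono fun a ha => ?_)
    simp only [u, hGf i a ha]
  have hu0 : ∫⁻ x, u x ∂η = ∫⁻ a, v 0 a ∂η := by simpa [hf0] using hui 0
  have huμ : ∫⁻ x, u x ∂μ = I₁ + I₂ := by
    rw [hμ]
    simp only [lintegral_add_measure, hui, hu0]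
    rw [← lintegral_add_left (hv 0), ← lintegral_add_right _ (hv 2),
      ← lintegral_add_left (hv 0), ← lintegral_add_right _ (hv 4), hI₁, hI₂]
    rw [lintegral_congr_ae (hη.mono fun a ha => heq1 a ha),
      lintegral_congr_ae (hη.mono fun a ha => heq2 a ha)]
  -- the support set
  let R : Set E := {x | (G x).2 ∈ K ∧ f (G x).1 (G x).2 = x}
  have hRm : MeasurableSet R :=
    (hG.snd hKm).inter (measurableSet_eq_fun (hF.comp hG) measurable_id)
  have hRi : ∀ i, ∀ᵐ x ∂(η.map (f i)), x ∈ R := fun i => by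
    refine (ae_map_iff (p := fun x => x ∈ R) (hf i).aemeasurable hRm).2 ?_
    refine hη.mono fun a ha => ?_
    simp only [R, mem_ofPred_eq, hGf i a ha]
    exact ⟨ha, trivial⟩
  have hR0 : ∀ᵐ x ∂η, x ∈ R := by simpa [hf0] using hRi 0
  have hR : ∀ᵐ x ∂μ, x ∈ R := by
    rw [hμ]
    simp only [ae_add_measure_iff]
    exact ⟨⟨⟨hR0, hRi 1⟩, hRi 2⟩, ⟨hR0, hRi 3⟩, hRi 4⟩
  have hle : ∀ x ∈ R, ∀ y ∈ R, ∀ z ∈ R, u x + u y + u z ≤ tripleCost s (x, y, z) := by
    intro x hx y hy z hz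
    have := hineq (G x).1 (G y).1 (G z).1 _ hx.1 _ hy.1 _ hz.1
    rwa [hx.2, hy.2, hz.2] at this
  have hleπ : ∀ π, IsCoupling₃ μ π → ∀ᵐ p ∂π, u p.1 + u p.2.1 + u p.2.2 ≤ tripleCost s p := by
    intro π hπ
    have h1 : ∀ᵐ p ∂π, p.1 ∈ R := ae_of_ae_map (by fun_prop) (hπ.1 ▸ hR)
    have h2 : ∀ᵐ p ∂π, p.2.1 ∈ R := ae_of_ae_map (f := fun p : E × E × E => p.2.1)
      (by fun_prop) (hπ.2.1 ▸ hR)
    have h3 : ∀ᵐ p ∂π, p.2.2 ∈ R := ae_of_ae_map (f := fun p : E × E × E => p.2.2)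
      (by fun_prop) (hπ.2.2 ▸ hR)
    filter_upwards [h1, h2, h3] with p h1 h2 h3 using hle _ h1 _ h2 _ h3
  have hηle : η ≤ μ := by
    rw [hμ, add_assoc, add_assoc]; exact Measure.le_add_right le_rfl
  refine ⟨cycPlan η (f 1) (f 2) + cycPlan η (f 3) (f 4), ?_, ?_, ?_, ?_, ?_⟩
  · rw [hμ]
    exact IsCoupling₃_add (cycPlan_coupling η (hf 1) (hf 2)) (cycPlan_coupling η (hf 3) (hf 4))
  · rw [hcost]; exact hD.lt_top
  · intro π hπ
    rw [hcost, ← huμ, ← lintegral_potential hπ hu]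
    exact lintegral_mono_ae (hleπ π hπ)
  · intro T₂ T₃ hT₂ hT₃ hm₂ hm₃
    rw [hcost]
    by_contra hcon
    rw [not_lt] at hcon
    have hcoup : IsCoupling₃ μ (μ.map fun x => (x, T₂ x, T₃ x)) := by
      refine ⟨?_, ?_, ?_⟩
      all_goals
        rw [Measure.map_map (by fun_prop) (by fun_prop)]
        simp only [Function.comp_def, Measure.map_id']
      · exact hm₂
      · exact hm₃
    have hpot := lintegral_potential hcoup hu
    rw [lintegral_map (by fun_prop) (by fun_prop), huμ] at hpot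
    have hle2 : ∀ᵐ x ∂μ, u x + u (T₂ x) + u (T₃ x) ≤ tripleCost s (x, T₂ x, T₃ x) :=
      ae_of_ae_map (f := fun x => (x, T₂ x, T₃ x)) (by fun_prop) (hleπ _ hcoup)
    have heq : (fun x => u x + u (T₂ x) + u (T₃ x)) =ᵐ[μ] fun x => tripleCost s (x, T₂ x, T₃ x) :=
      ae_eq_of_ae_le_of_lintegral_le hle2 (by simp only at hpot; rw [hpot]; exact hD)
        (hm.comp (by fun_prop)).aemeasurable (by simp only at hpot; rw [hpot]; exact hcon)
    have hR2 : ∀ᵐ x ∂μ, T₂ x ∈ R := ae_of_ae_map hT₂.aemeasurable (hm₂.symm ▸ hR)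
    have hR3 : ∀ᵐ x ∂μ, T₃ x ∈ R := ae_of_ae_map hT₃.aemeasurable (hm₃.symm ▸ hR)
    have hkey : ∀ᵐ a ∂η, (G (T₂ a)).1 ≠ 0 ∧ (G (T₂ a)).2 = a := by
      filter_upwards [hη, ae_mono hηle heq, ae_mono hηle hR2, ae_mono hηle hR3]
        with a ha h1 h2 h3
      refine hrigid _ (G (T₃ a)).1 a ha _ h2.1 _ h3.1 ?_
      rw [h2.2, h3.2, ← h1]
      simp only [u, hG0 a ha, le_refl]
    let A : Fin 5 → Set E := fun j => {a | (G (T₂ a)).1 = j ∧ (G (T₂ a)).2 = a}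
    have hAm : ∀ j, MeasurableSet (A j) := fun j =>
      ((hG.comp hT₂).fst (measurableSet_singleton j)).inter
        (measurableSet_eq_fun (hG.comp hT₂).snd measurable_id)
    have hA0 : ∀ j, j ≠ 0 → η (A j) = 0 := by
      intro j hj
      let W : Set E := G ⁻¹' ({j} ×ˢ A j)
      have hWm : MeasurableSet W := hG ((measurableSet_singleton j).prod (hAm j))
      have hWi : ∀ i, (η.map (f i)) W = if i = j then η (A j) else 0 := fun i => by
        rw [Measure.map_apply (hf i) hWm]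
        split_ifs with hij
        · refine measure_congr (hη.mono fun a ha => ?_)
          change (G (f i a) ∈ ({j} ×ˢ A j : Set (Fin 5 × E))) = (a ∈ A j)
          rw [hGf i a ha]
          simp [hij]
        · rw [← measure_empty (μ := η)]
          refine measure_congr (hη.mono fun a ha => ?_)
          change (G (f i a) ∈ ({j} ×ˢ A j : Set (Fin 5 × E))) = (a ∈ (∅ : Set E))
          simp [hGf i a ha, hij]
      have hW0 : η W = 0 := by simpa [hf0, hj.symm] using hWi 0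
      have hμW : μ W = η (A j) := by
        rw [hμ]
        simp only [Measure.add_apply, hWi, hW0]
        fin_cases j <;> simp at hj ⊢
      have h1 : μ (A j) ≤ η (A j) := by
        rw [← hμW, ← hm₂, Measure.map_apply hT₂ hWm, hm₂]
        refine measure_mono fun a ha => ?_
        exact ⟨ha.1, by rw [ha.2]; exact ha⟩
      have h2 : η (A j) + η (A j) ≤ μ (A j) := by
        rw [hμ]
        simp only [Measure.add_apply]
        exact add_le_add (le_add_right (le_add_right le_rfl)) (le_add_right (le_add_right le_rfl))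
      have h3 : η (A j) + η (A j) ≤ η (A j) + 0 := by simpa using h2.trans h1
      exact le_antisymm ((ENNReal.add_le_add_iff_left (measure_ne_top _ _)).1 h3) bot_le
    have hall : ∀ᵐ a ∂η, ∀ j, j ≠ 0 → a ∉ A j := by
      rw [ae_all_iff]
      intro j
      by_cases hj : j = 0
      · simp [hj]
      · filter_upwards [measure_eq_zero_iff_ae_notMem.1 (hA0 j hj)] with a ha _ using ha
    have : ∀ᵐ a ∂η, False := by
      filter_upwards [hkey, hall] with a h1 h2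
      exact h2 _ h1.1 ⟨rfl, h1.2⟩
    exact hη0 (by simpa using this)
  · intro ε hε
    rw [hcost]
    obtain ⟨ε', hε'0, hε'⟩ := ENNReal.exists_nnreal_pos_mul_lt (a := 6 * η univ)
      (ENNReal.mul_ne_top (by simp) (measure_ne_top _ _)) hε.ne'
    have hε'1 : (ε' : ℝ≥0∞) ≠ 0 := by simpa using hε'0.ne'
    obtain ⟨δ₁, hδ₁, h₁⟩ := exists_delta s hK (hfc 1) (hfc 2)
      (hfin 1 2 (by decide) (by decide) (by decide)) hε'1
    obtain ⟨δ₂, hδ₂, h₂⟩ := exists_delta s hK (hfc 3) (hfc 4)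
      (hfin 3 4 (by decide) (by decide) (by decide)) hε'1
    obtain ⟨A, hA, hAS⟩ := Lib.Transport.exists_halving η (lt_min hδ₁ hδ₂)
    obtain ⟨S₁, S₁', hS₁, hS₁', hm₁, hm₁', hd₁, hd₁'⟩ := hAS A (Or.inl rfl)
    obtain ⟨S₂, S₂', hS₂, hS₂', hm₂, hm₂', hd₂, hd₂'⟩ := hAS Aᶜ (Or.inr rfl)
    let t₂ : Fin 5 → E → E := ![A.piecewise (f 1 ∘ S₁) (f 3 ∘ S₂), f 2, S₁', f 4, S₂']
    let t₃ : Fin 5 → E → E := ![A.piecewise (f 2 ∘ S₁) (f 4 ∘ S₂), S₁', f 1, S₂', f 3]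
    have ht₂ : ∀ i, Measurable (t₂ i) := by
      intro i
      fin_cases i
      · exact Measurable.piecewise hA ((hf 1).comp hS₁) ((hf 3).comp hS₂)
      · exact hf 2
      · exact hS₁'
      · exact hf 4
      · exact hS₂'
    have ht₃ : ∀ i, Measurable (t₃ i) := by
      intro i
      fin_cases i
      · exact Measurable.piecewise hA ((hf 2).comp hS₁) ((hf 4).comp hS₂)
      · exact hS₁'
      · exact hf 1
      · exact hS₂'
      · exact hf 3
    let T₂ : E → E := fun x => t₂ (G x).1 (G x).2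
    let T₃ : E → E := fun x => t₃ (G x).1 (G x).2
    have hT₂ : Measurable T₂ :=
      (measurable_from_prod_countable_right (f := fun p : Fin 5 × E => t₂ p.1 p.2) ht₂).comp hG
    have hT₃ : Measurable T₃ :=
      (measurable_from_prod_countable_right (f := fun p : Fin 5 × E => t₃ p.1 p.2) ht₃).comp hG
    have hT : ∀ i, ∀ a ∈ K, T₂ (f i a) = t₂ i a ∧ T₃ (f i a) = t₃ i a := fun i a ha => by
      simp only [T₂, T₃, hGf i a ha, and_self]
    have hT0 : ∀ a ∈ K, T₂ a = t₂ 0 a ∧ T₃ a = t₃ 0 a := fun a ha => by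
      simpa [hf0] using hT 0 a ha
    have hν : ∀ B : Set E, MeasurableSet B →
        ∀ᵐ a ∂((2 : ℝ≥0∞) • η.restrict B), a ∈ K ∧ a ∈ B := fun B hB =>
      Measure.ae_smul_measure ((ae_restrict_of_ae hη).and (ae_restrict_mem hB)) _
    obtain ⟨p1, p2, p3⟩ := half_plan s η ((2 : ℝ≥0∞) • η.restrict A) hη
      ((hν A hA).mono fun a ha => ha.1) (hf 1) (hf 2) hS₁ hS₁' hT₂ hT₃ hm₁ hm₁' hd₁ hd₁'
      (fun a ha a' ha' h => h₁ a ha a' ha' (h.trans (min_le_left _ _)))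
      ((hν A hA).mono fun a ha => by
        rw [(hT0 a ha.1).1, (hT0 a ha.1).2]
        exact ⟨piecewise_eq_of_mem _ _ _ ha.2, piecewise_eq_of_mem _ _ _ ha.2⟩)
      (hT 1) (hT 2)
    obtain ⟨q1, q2, q3⟩ := half_plan s η ((2 : ℝ≥0∞) • η.restrict Aᶜ) hη
      ((hν Aᶜ hA.compl).mono fun a ha => ha.1) (hf 3) (hf 4) hS₂ hS₂' hT₂ hT₃ hm₂ hm₂' hd₂ hd₂'
      (fun a ha a' ha' h => h₂ a ha a' ha' (h.trans (min_le_right _ _)))
      ((hν Aᶜ hA.compl).mono fun a ha => by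
        rw [(hT0 a ha.1).1, (hT0 a ha.1).2]
        exact ⟨piecewise_eq_of_notMem _ _ _ ha.2, piecewise_eq_of_notMem _ _ _ ha.2⟩)
      (hT 3) (hT 4)
    have hμ' : μ = ((2 : ℝ≥0∞) • η.restrict A + η.map (f 1) + η.map (f 2)) +
        ((2 : ℝ≥0∞) • η.restrict Aᶜ + η.map (f 3) + η.map (f 4)) := by
      have : η + η = (2 : ℝ≥0∞) • η.restrict A + (2 : ℝ≥0∞) • η.restrict Aᶜ := by
        rw [← smul_add, Measure.restrict_add_restrict_compl hA, two_smul]
      rw [hμ]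
      calc _ = (η + η) + (η.map (f 1) + η.map (f 2) + η.map (f 3) + η.map (f 4)) := by abel
        _ = _ := by rw [this]; abel
    refine ⟨T₂, T₃, hT₂, hT₃, ?_, ?_, ?_⟩
    · rw [hμ', Measure.map_add _ _ hT₂, p1, q1]
    · rw [hμ', Measure.map_add _ _ hT₃, p2, q2]
    · rw [hμ', lintegral_add_measure]
      calc _ ≤ _ := add_le_add p3 q3
        _ = 3 * (I₁ + I₂) + ε' * (6 * η univ) := by ring
        _ < _ := ENNReal.add_lt_add_left hD hε'

end Crest.Agent.R130
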