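import Mathlib

/-!
Calculus for the inverse power potential `‖v‖ ^ (-s)`.
-/

set_option autoImplicit false

open Set Filter Metric
open scoped Topology ContDiff RealInnerProductSpace

namespace Crest.Agent.R130

variable {E : Type*} [NormedAddCommGroup E] [InnerProductSpace ℝ E]

/-- gradient of `‖v‖ ^ (-s)` -/
noncomputable def gradP (s : ℝ) (v : E) : E := (-s * ‖v‖ ^ (-s - 2)) • v

/-- Hessian of `‖v‖ ^ (-s)` -/
noncomputable def hessP (s : ℝ) (v : E) : E →L[ℝ] E :=
  (-s * ‖v‖ ^ (-s - 2)) • ContinuousLinearMap.id ℝ E +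
    (s * (s + 2) * ‖v‖ ^ (-s - 4)) • (innerSL ℝ v).smulRight v

theorem hasFDerivAt_norm_rpow_ne {x : E} (hx : x ≠ 0) (p : ℝ) :
    HasFDerivAt (fun x : E ↦ ‖x‖ ^ p) ((p * ‖x‖ ^ (p - 2)) • innerSL ℝ x) x := by
  apply HasStrictFDerivAt.hasFDerivAt
  convert! (hasStrictFDerivAt_norm_sq x).rpow_const (p := p / 2) (by simp [hx]) using 0
  simp_rw [← Real.rpow_natCast_mul (norm_nonneg _), ← Nat.cast_smul_eq_nsmul ℝ, smul_smul]
  ring_nf

theorem hasFDerivAt_pot (s : ℝ) {x : E} (hx : x ≠ 0) :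
    HasFDerivAt (fun x : E ↦ ‖x‖ ^ (-s)) (innerSL ℝ (gradP s x)) x := by
  convert hasFDerivAt_norm_rpow_ne hx (-s) using 1
  simp [gradP]

theorem hasFDerivAt_gradP (s : ℝ) {x : E} (hx : x ≠ 0) :
    HasFDerivAt (gradP s) (hessP s x) x := by
  have h1 := ((hasFDerivAt_norm_rpow_ne hx (-s - 2)).const_mul (-s)).smul (hasFDerivAt_id x)
  refine HasFDerivAt.congr_fderiv (f' := _) h1 ?_
  ext w
  simp only [hessP, add_apply, smul_apply,
    ContinuousLinearMap.id_apply, ContinuousLinearMap.smulRight_apply, innerSL_apply_apply, id,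
    smul_eq_mul, smul_smul]
  congr 2
  rw [show -s - 2 - 2 = -s - 4 by ring]
  ring

theorem contDiffAt_pot (p : ℝ) {x : E} (hx : x ≠ 0) {n : WithTop ℕ∞} :
    ContDiffAt ℝ n (fun x : E ↦ ‖x‖ ^ p) x :=
  (contDiffAt_norm ℝ hx).rpow_const_of_ne (norm_ne_zero_iff.2 hx)

theorem contDiffAt_gradP (s : ℝ) {x : E} (hx : x ≠ 0) {n : WithTop ℕ∞} :
    ContDiffAt ℝ n (gradP s) x :=
  (contDiffAt_const.mul (contDiffAt_pot _ hx)).smul contDiffAt_id

theorem gradP_neg (s : ℝ) (x : E) : gradP s (-x) = -gradP s x := by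
  simp [gradP]

theorem hessP_neg (s : ℝ) (x : E) : hessP s (-x) = hessP s x := by
  ext w
  simp [hessP]

theorem hessP_two (s : ℝ) (x : E) :
    hessP s ((2 : ℝ) • x) = (2 : ℝ) ^ (-s - 2) • hessP s x := by
  ext w
  have h2 : ‖(2 : ℝ) • x‖ = 2 * ‖x‖ := by rw [norm_smul]; simp
  simp only [hessP, add_apply, smul_apply,
    ContinuousLinearMap.id_apply, ContinuousLinearMap.smulRight_apply, innerSL_apply_apply,
    smul_smul, smul_add, h2, Real.mul_rpow (zero_le_two) (norm_nonneg x), real_inner_smul_left]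
  congr 2
  · ring
  · have : (2 : ℝ) ^ (-s - 2) = 2 ^ (-s - 4) * 4 := by
      rw [show -s - 2 = (-s - 4) + 2 by ring, Real.rpow_add (by norm_num)]
      norm_num
    rw [this]; ring

theorem hessP_injective {s : ℝ} (hs : 0 < s) {e : E} (he : ‖e‖ = 1) (v : E)
    (hv : hessP s e v = 0) : v = 0 := by
  simp only [hessP, add_apply, smul_apply,
    ContinuousLinearMap.id_apply, ContinuousLinearMap.smulRight_apply, innerSL_apply_apply,
    smul_smul, he, Real.one_rpow, mul_one] at hv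
  have h1 := congrArg (fun w => ⟪e, w⟫) hv
  simp only [inner_add_right, real_inner_smul_right, inner_zero_right,
    real_inner_self_eq_norm_sq, he] at h1
  have h2 : ⟪e, v⟫ = 0 := by
    have : s * (s + 1) * ⟪e, v⟫ = 0 := by linarith
    rcases mul_eq_zero.1 this with h | h
    · exact absurd h (by positivity)
    · exact h
  rw [h2] at hv
  simpa [hs.ne'] using hv

/-- semiconvexity of the potential near a nonzero point -/
theorem semiconvex (s : ℝ) {v₀ : E} (hv : v₀ ≠ 0) :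
    ∃ K : ℝ, 0 ≤ K ∧ ∀ᶠ p : E × E in 𝓝 (v₀, v₀),
      ‖p.2‖ ^ (-s) + ⟪gradP s p.2, p.1 - p.2⟫ - K * ‖p.1 - p.2‖ ^ 2 ≤ ‖p.1‖ ^ (-s) := by
  obtain ⟨K, t, ht, hK⟩ := (contDiffAt_gradP s hv (n := 1)).exists_lipschitzOnWith
  obtain ⟨r, hr, hrt⟩ := Metric.mem_nhds_iff.1 (inter_mem ht (isOpen_ne.mem_nhds hv))
  refine ⟨K, K.2, ?_⟩
  have hb : ball v₀ r ×ˢ ball v₀ r ∈ 𝓝 (v₀, v₀) :=
    prod_mem_nhds (ball_mem_nhds _ hr) (ball_mem_nhds _ hr)
  filter_upwards [hb] with p hp
  obtain ⟨v, w⟩ := p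
  obtain ⟨hv, hw⟩ := hp
  simp only at hv hw ⊢
  have hseg : segment ℝ w v ⊆ ball v₀ r := (convex_ball v₀ r).segment_subset hw hv
  have h := (convex_segment w v).norm_image_sub_le_of_norm_hasFDerivWithin_le'
    (f := fun x : E ↦ ‖x‖ ^ (-s)) (f' := fun x => innerSL ℝ (gradP s x))
    (φ := innerSL ℝ (gradP s w)) (C := K * ‖v - w‖)
    (fun x hx => (hasFDerivAt_pot s (hrt (hseg hx)).2).hasFDerivWithinAt)
    (fun x hx => by
      rw [← map_sub, innerSL_apply_norm]
      have h1 := hK.norm_sub_le (hrt (hseg hx)).1 (hrt hw).1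
      have h2 : ‖x - w‖ ≤ ‖v - w‖ := by
        have := dist_add_dist_of_mem_segment hx
        rw [← dist_eq_norm, ← dist_eq_norm, dist_comm x w, dist_comm v w, ← this]
        exact le_add_of_nonneg_right dist_nonneg
      exact h1.trans (mul_le_mul_of_nonneg_left h2 K.2))
    (left_mem_segment ℝ w v) (right_mem_segment ℝ w v)
  rw [innerSL_apply_apply, Real.norm_eq_abs] at h
  have := (abs_le.1 h).1
  nlinarith

section linalg

variable {H : E →L[ℝ] E} {κ L : ℝ} {u v w : E}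

theorem eq_zero_of_smul_eq (hL : 3 * ‖H‖ < L) {a : ℝ} (ha : |a| ≤ 3) (h : L • v = a • H v) :
    v = 0 := by
  have h1 : |L| * ‖v‖ ≤ 3 * (‖H‖ * ‖v‖) := by
    rw [← Real.norm_eq_abs, ← norm_smul, h, norm_smul, Real.norm_eq_abs]
    exact mul_le_mul ha (H.le_opNorm v) (norm_nonneg _) (by norm_num)
  have h2 : L ≤ |L| := le_abs_self L
  have h3 := norm_nonneg v
  have h4 : (L - 3 * ‖H‖) * ‖v‖ ≤ 0 := by nlinarith
  have h5 : ‖v‖ ≤ 0 := by
    by_contra h6
    have := mul_pos (sub_pos.2 hL) (not_le.1 h6)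
    linarith
  exact norm_le_zero_iff.1 h5

theorem lin_u (hH : ∀ x, H x = 0 → x = 0) (hκ0 : 0 < κ) (hκ1 : κ ≤ 1) (hL : 3 * ‖H‖ < L)
    (h1 : H (u - v) + H (u - w) + L • u = 0) (h2 : -H (u - v) + κ • H (v - w) + L • v = 0)
    (hu : u = 0) : v = 0 ∧ w = 0 := by
  subst hu
  have hw : w = -v := by
    have : H (w + v) = 0 := by
      simp only [map_sub, map_zero, smul_zero, map_add] at h1 ⊢
      linear_combination (norm := module) -h1
    exact eq_neg_of_add_eq_zero_left (hH _ this)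
  subst hw
  have hv : v = 0 := by
    refine eq_zero_of_smul_eq (H := H) hL (a := -(1 + 2 * κ))
      (by rw [abs_le]; constructor <;> linarith) ?_
    simp only [map_sub, map_zero, map_neg] at h2
    linear_combination (norm := module) h2
  simp [hv]

theorem lin_v (hH : ∀ x, H x = 0 → x = 0) (hκ0 : 0 < κ) (hκ1 : κ ≤ 1) (hL : 3 * ‖H‖ < κ * L)
    (h1 : H (u - v) + H (u - w) + L • u = 0) (h2 : -H (u - v) + κ • H (v - w) + L • v = 0)
    (hv : v = 0) : u = 0 := by
  subst hv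
  have hu : u = -(κ • w) := by
    have : H (u + κ • w) = 0 := by
      simp only [map_sub, map_zero, smul_zero, map_add, map_smul] at h2 ⊢
      linear_combination (norm := module) -h2
    exact eq_neg_of_add_eq_zero_left (hH _ this)
  subst hu
  have hw : w = 0 := by
    refine eq_zero_of_smul_eq (H := H) hL (a := -(1 + 2 * κ))
      (by rw [abs_le]; constructor <;> linarith) ?_
    simp only [map_sub, map_zero, map_neg, map_smul] at h1
    linear_combination (norm := module) -h1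
  simp [hw]

theorem lin_w (hκ0 : 0 < κ) (hκ1 : κ ≤ 1) (hL : 3 * ‖H‖ < L)
    (h1 : H (u - v) + H (u - w) + L • u = 0) (h2 : -H (u - v) + κ • H (v - w) + L • v = 0)
    (hw : w = 0) : u = 0 := by
  subst hw
  have hL0 : 0 < L := lt_of_le_of_lt (by positivity) hL
  have e1 : L • u = H v - (2 : ℝ) • H u := by
    simp only [map_sub, map_zero] at h1
    linear_combination (norm := module) h1
  have e2 : L • v = H u - (1 + κ) • H v := by
    simp only [map_sub, map_zero] at h2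
    linear_combination (norm := module) h2
  have hu := H.le_opNorm u
  have hv := H.le_opNorm v
  have n1 : L * ‖u‖ ≤ ‖H v‖ + 2 * ‖H u‖ := by
    have := norm_sub_le (H v) ((2 : ℝ) • H u)
    rw [← e1, norm_smul, norm_smul, Real.norm_of_nonneg hL0.le, Real.norm_of_nonneg zero_le_two]
      at this
    exact this
  have n2 : L * ‖v‖ ≤ ‖H u‖ + 2 * ‖H v‖ := by
    have := norm_sub_le (H u) ((1 + κ) • H v)
    rw [← e2, norm_smul, norm_smul, Real.norm_of_nonneg hL0.le,
      Real.norm_of_nonneg (by linarith)] at this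
    nlinarith [norm_nonneg (H v)]
  have h4 : (L - 3 * ‖H‖) * (‖u‖ + ‖v‖) ≤ 0 := by nlinarith
  have h5 : ‖u‖ + ‖v‖ ≤ 0 := by
    by_contra h6
    have := mul_pos (sub_pos.2 hL) (not_le.1 h6)
    linarith
  exact norm_le_zero_iff.1 (by linarith [norm_nonneg v])

end linalg

end Crest.Agent.R130
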