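import Crest.Agent.R130.Local
import Crest.Agent.R130.Abstract

/-!
The five-point configuration `0, ±e₁, ±e₂` and its dual potentials.
-/

set_option autoImplicit false

open Set Filter Metric
open scoped ENNReal Topology ContDiff RealInnerProductSpace
open Crest.AnalysisR.OT

namespace Crest.Agent.R130

variable {E : Type*} [NormedAddCommGroup E] [InnerProductSpace ℝ E]

omit [InnerProductSpace ℝ E] in
theorem pairCost_eq (s : ℝ) {x y : E} (h : x ≠ y) :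
    pairCost s x y = ENNReal.ofReal (‖x - y‖ ^ (-s)) := by
  have : 0 < ‖x - y‖ := norm_pos_iff.2 (sub_ne_zero.2 h)
  rw [pairCost, ENNReal.ofReal_rpow_of_pos this]

omit [InnerProductSpace ℝ E] in
theorem tripleCost_eq (s : ℝ) {x y z : E} (h1 : x ≠ y) (h2 : x ≠ z) (h3 : y ≠ z) :
    tripleCost s (x, y, z) = ENNReal.ofReal (rcost s x y z) := by
  simp only [tripleCost, rcost]
  rw [pairCost_eq s h1, pairCost_eq s h2, pairCost_eq s h3,
    ENNReal.ofReal_add (by positivity) (by positivity),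
    ENNReal.ofReal_add (by positivity) (by positivity)]

omit [InnerProductSpace ℝ E] in
theorem pairCost_self {s : ℝ} (hs : 0 < s) (x : E) : pairCost s x x = ⊤ := by
  simp [pairCost, hs]

omit [InnerProductSpace ℝ E] in
theorem lt_pairCost {s : ℝ} (hs : 0 < s) {x y : E} (h : ‖x - y‖ < 2) :
    ENNReal.ofReal (2 ^ (-s)) < pairCost s x y := by
  by_cases hxy : x = y
  · rw [hxy, pairCost_self hs]; exact ENNReal.ofReal_lt_top
  have : 0 < ‖x - y‖ := norm_pos_iff.2 (sub_ne_zero.2 hxy)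
  rw [pairCost_eq s hxy, ENNReal.ofReal_lt_ofReal_iff (by positivity)]
  exact Real.rpow_lt_rpow_of_neg this h (by linarith)

omit [InnerProductSpace ℝ E] in
theorem le_pairCost {s : ℝ} (hs : 0 < s) {x y : E} (h : ‖x - y‖ ≤ 2) :
    ENNReal.ofReal (2 ^ (-s)) ≤ pairCost s x y := by
  rcases h.lt_or_eq with h | h
  · exact (lt_pairCost hs h).le
  · rw [pairCost, h, ENNReal.ofReal_rpow_of_pos (by norm_num)]

/-- the optimal index triples -/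
def Good (i j k : Fin 5) : Prop :=
  (i, j, k) ∈ ([(0, 1, 2), (0, 2, 1), (1, 0, 2), (1, 2, 0), (2, 0, 1), (2, 1, 0),
    (0, 3, 4), (0, 4, 3), (3, 0, 4), (3, 4, 0), (4, 0, 3), (4, 3, 0)] :
    List (Fin 5 × Fin 5 × Fin 5))

instance (i j k : Fin 5) : Decidable (Good i j k) := by unfold Good; infer_instance

/-- pairs of outer indices on different axes -/
def Cross (j k : Fin 5) : Prop :=
  ((j = 1 ∨ j = 2) ∧ (k = 3 ∨ k = 4)) ∨ ((j = 3 ∨ j = 4) ∧ (k = 1 ∨ k = 2))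

instance (j k : Fin 5) : Decidable (Cross j k) := by unfold Cross; infer_instance

theorem index_cases : ∀ i j k : Fin 5, Good i j k ∨ i = j ∨ i = k ∨ j = k ∨
    (i ≠ 0 ∧ j ≠ 0 ∧ k ≠ 0) ∨ (i = 0 ∧ Cross j k) ∨ (j = 0 ∧ Cross i k) ∨
    (k = 0 ∧ Cross i j) := by decide

theorem cross_ne : ∀ j k : Fin 5, Cross j k → j ≠ 0 ∧ k ≠ 0 := by decide

theorem good_zero : ∀ j k : Fin 5, Good 0 j k →
    (j = 1 ∧ k = 2 ∨ j = 3 ∧ k = 4) ∨ (k = 1 ∧ j = 2 ∨ k = 3 ∧ j = 4) := by decide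

theorem center_lt {s : ℝ} (hs : 0 < s) {e₁ e₂ : E} (h₁ : ‖e₁‖ = 1) (h₂ : ‖e₂‖ = 1)
    (h₁₂ : ⟪e₁, e₂⟫ = 0) (p : Fin 5 → E) (hp : p = ![0, e₁, -e₁, e₂, -e₂])
    (t : Fin 5 → ℝ) (ht0 : t 0 = 2) (ht : ∀ i, i ≠ 0 → t i = 2 ^ (-s) / 2)
    (i j k : Fin 5) (h : ¬ Good i j k) :
    ENNReal.ofReal (t i) + ENNReal.ofReal (t j) + ENNReal.ofReal (t k) <
      tripleCost s (p i, p j, p k) := by
  have hκ : (0 : ℝ) < 2 ^ (-s) := by positivity
  have hn : ∀ i, i ≠ 0 → ‖p i‖ = 1 := by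
    intro i hi
    fin_cases i <;> simp [hp, h₁, h₂] at hi ⊢
  have hp0 : p 0 = 0 := by simp [hp]
  have hn' : ∀ i, ‖p i‖ ≤ 1 := fun i => by
    by_cases hi : i = 0
    · simp [hi, hp0]
    · exact (hn i hi).le
  have hle : ∀ i j, ENNReal.ofReal (2 ^ (-s)) ≤ pairCost s (p i) (p j) := fun i j =>
    le_pairCost hs ((norm_sub_le _ _).trans (by linarith [hn' i, hn' j]))
  have hone : ∀ j, j ≠ 0 → pairCost s (p 0) (p j) = 1 := fun j hj => by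
    simp [pairCost, hp0, hn j hj]
  have hcross : ∀ j k, Cross j k → ENNReal.ofReal (2 ^ (-s)) < pairCost s (p j) (p k) := by
    intro j k hjk
    refine lt_pairCost hs ?_
    have hi : ⟪p j, p k⟫ = 0 := by
      have h₂₁ : ⟪e₂, e₁⟫ = 0 := by rw [real_inner_comm]; exact h₁₂
      rcases hjk with ⟨rfl | rfl, rfl | rfl⟩ | ⟨rfl | rfl, rfl | rfl⟩ <;> simp [hp, h₁₂, h₂₁]
    have := norm_sub_sq_real (p j) (p k)
    rw [hi, hn j (cross_ne j k hjk).1, hn k (cross_ne j k hjk).2] at this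
    nlinarith [norm_nonneg (p j - p k)]
  have key : ∀ j k, Cross j k → ENNReal.ofReal (t 0) + ENNReal.ofReal (t j) +
      ENNReal.ofReal (t k) < tripleCost s (p 0, p j, p k) := by
    intro j k hjk
    obtain ⟨hj, hk⟩ := cross_ne j k hjk
    simp only [tripleCost]
    rw [hone j hj, hone k hk, ht0, ht j hj, ht k hk, add_assoc,
      ← ENNReal.ofReal_add (by positivity) (by positivity), add_halves, one_add_one_eq_two,
      ENNReal.ofReal_ofNat]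
    exact ENNReal.add_lt_add_left (by simp) (hcross j k hjk)
  rcases index_cases i j k with hg | rfl | rfl | rfl | ⟨hi, hj, hk⟩ | ⟨rfl, hc⟩ | ⟨rfl, hc⟩ |
    ⟨rfl, hc⟩
  · exact absurd hg h
  · simp [tripleCost, pairCost_self hs]
  · simp [tripleCost, pairCost_self hs]
  · simp [tripleCost, pairCost_self hs]
  · rw [ht i hi, ht j hj, ht k hk]
    have h1 : ENNReal.ofReal (2 ^ (-s) / 2) < ENNReal.ofReal (2 ^ (-s)) :=
      (ENNReal.ofReal_lt_ofReal_iff hκ).2 (half_lt_self hκ)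
    exact ENNReal.add_lt_add (ENNReal.add_lt_add (h1.trans_le (hle _ _)) (h1.trans_le (hle _ _)))
      (h1.trans_le (hle _ _))
  · exact key j k hc
  · have := key i k hc
    rw [← tripleCost_cyc, tripleCost_swap] at this
    rwa [add_comm (ENNReal.ofReal (t i))]
  · have := key i j hc
    rw [← tripleCost_cyc] at this
    rwa [add_comm, ← add_assoc]

theorem geometry [FiniteDimensional ℝ E] {s : ℝ} (hs : 0 < s) {e₁ e₂ : E} (h₁ : ‖e₁‖ = 1)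
    (h₂ : ‖e₂‖ = 1) (h₁₂ : ⟪e₁, e₂⟫ = 0) :
    ∃ (f : Fin 5 → E → E) (f' : Fin 5 → E ≃L[ℝ] E) (v : Fin 5 → E → ℝ≥0∞) (r : ℝ), 0 < r ∧
      f 0 = id ∧ (∀ i, ContDiffAt ℝ ω (f i) 0 ∧ HasFDerivAt (f i) (f' i : E →L[ℝ] E) 0) ∧
      (∀ i, ContinuousOn (v i) (ball 0 r)) ∧
      (∀ i j, i ≠ j → ∀ a ∈ ball (0 : E) r, ∀ a' ∈ ball (0 : E) r, f i a ≠ f j a') ∧
      (∀ i j k, ∀ a₁ ∈ ball (0 : E) r, ∀ a₂ ∈ ball (0 : E) r, ∀ a₃ ∈ ball (0 : E) r,
        v i a₁ + v j a₂ + v k a₃ ≤ tripleCost s (f i a₁, f j a₂, f k a₃)) ∧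
      (∀ a ∈ ball (0 : E) r, v 0 a + v 1 a + v 2 a = tripleCost s (a, f 1 a, f 2 a)) ∧
      (∀ a ∈ ball (0 : E) r, v 0 a + v 3 a + v 4 a = tripleCost s (a, f 3 a, f 4 a)) ∧
      (∀ j k, ∀ a₁ ∈ ball (0 : E) r, ∀ a₂ ∈ ball (0 : E) r, ∀ a₃ ∈ ball (0 : E) r,
        tripleCost s (a₁, f j a₂, f k a₃) ≤ v 0 a₁ + v j a₂ + v k a₃ →
          j ≠ 0 ∧ f j a₂ = f j a₁) := by
  obtain ⟨L₁, hL₁⟩ := local_structure hs h₁
  obtain ⟨L₂, hL₂⟩ := local_structure hs h₂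
  set L := max L₁ L₂
  obtain ⟨b₁, c₁, b₁', c₁', hb₁, hb₁', hc₁, hc₁', hb₁0, hc₁0, v₁, w₁, hv₁, hw₁, hv₁0, he₁, hi₁⟩ :=
    hL₁ L (le_max_left _ _)
  obtain ⟨b₂, c₂, b₂', c₂', hb₂, hb₂', hc₂, hc₂', hb₂0, hc₂0, v₂, w₂, hv₂, hw₂, hv₂0, he₂, hi₂⟩ :=
    hL₂ L (le_max_right _ _)
  have hκ : (0 : ℝ) < 2 ^ (-s) := by positivity
  set β : ℝ := 2 ^ (-s) / 2 with hβ
  let f : Fin 5 → E → E := ![id, b₁, c₁, b₂, c₂]
  let f' : Fin 5 → E ≃L[ℝ] E := ![ContinuousLinearEquiv.refl ℝ E, b₁', c₁', b₂', c₂']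
  let V : Fin 5 → E → ℝ := ![fun a => 2 - L / 2 * ‖a‖ ^ 2, fun a => β + v₁ a,
    fun a => w₁ a - 2 - β, fun a => β + v₂ a, fun a => w₂ a - 2 - β]
  have hf : ∀ i, ContDiffAt ℝ ω (f i) 0 ∧ HasFDerivAt (f i) (f' i : E →L[ℝ] E) 0 := by
    intro i
    fin_cases i
    · exact ⟨contDiffAt_id, hasFDerivAt_id 0⟩
    · exact ⟨hb₁, hb₁'⟩
    · exact ⟨hc₁, hc₁'⟩
    · exact ⟨hb₂, hb₂'⟩
    · exact ⟨hc₂, hc₂'⟩
  have hV : ∀ i, ContDiffAt ℝ ω (V i) 0 := by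
    intro i
    fin_cases i
    · exact contDiffAt_const.sub (contDiffAt_const.mul (contDiffAt_id.norm_sq ℝ))
    · exact contDiffAt_const.add hv₁
    · exact (hw₁.sub contDiffAt_const).sub contDiffAt_const
    · exact contDiffAt_const.add hv₂
    · exact (hw₂.sub contDiffAt_const).sub contDiffAt_const
  have hrc : ∀ e : E, ‖e‖ = 1 → rcost s 0 e (-e) = 2 + 2 ^ (-s) := fun e he => by
    have : ‖e - -e‖ = 2 := by rw [sub_neg_eq_add, ← two_smul ℝ e, norm_smul, he]; simp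
    simp only [rcost, this]
    simp [he]; norm_num
  have hw₁0 : w₁ 0 = 2 + 2 ^ (-s) := by
    have := he₁ 0
    rw [hb₁0, hc₁0, hrc e₁ h₁, hv₁0] at this
    simpa using this
  have hw₂0 : w₂ 0 = 2 + 2 ^ (-s) := by
    have := he₂ 0
    rw [hb₂0, hc₂0, hrc e₂ h₂, hv₂0] at this
    simpa using this
  have hV00 : V 0 0 = 2 := by simp [V]
  have hV0 : ∀ i, i ≠ 0 → V i 0 = 2 ^ (-s) / 2 := by
    intro i hi
    fin_cases i
    · exact absurd rfl hi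
    · simp [V, hv₁0, hβ]
    · simp [V, hw₁0, hβ]; ring
    · simp [V, hv₂0, hβ]
    · simp [V, hw₂0, hβ]; ring
  have hp : (fun i => f i 0) = ![0, e₁, -e₁, e₂, -e₂] := by
    funext i
    fin_cases i <;> simp [f, hb₁0, hc₁0, hb₂0, hc₂0]
  have hcl := center_lt hs h₁ h₂ h₁₂ _ hp (fun i => V i 0) hV00 hV0
  have hpne : ∀ i j, i ≠ j → f i 0 ≠ f j 0 := by
    intro i j hij h
    have e1 : e₁ ≠ 0 := by rintro rfl; simp at h₁
    have e2 : e₂ ≠ 0 := by rintro rfl; simp at h₂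
    have e3 : e₁ ≠ -e₁ := fun h => e1 (by
      have : (2 : ℝ) • e₁ = 0 := by rw [two_smul]; nth_rw 1 [h]; simp
      simpa using this)
    have e4 : e₂ ≠ -e₂ := fun h => e2 (by
      have : (2 : ℝ) • e₂ = 0 := by rw [two_smul]; nth_rw 1 [h]; simp
      simpa using this)
    have e5 : e₁ ≠ e₂ := fun h => e2 (by rw [h] at h₁₂; simpa using h₁₂)
    have e6 : e₁ ≠ -e₂ := fun h => e2 (by rw [h] at h₁₂; simpa using h₁₂)
    have e7 : -e₁ ≠ e₂ := fun h => e6 (by rw [← h]; simp)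
    have hi := congrFun hp i
    have hj := congrFun hp j
    rw [hi, hj] at h
    fin_cases i <;> fin_cases j <;>
      simp [e1, e2, e3, e4, e5, e6, e7, e1.symm, e2.symm, e3.symm, e4.symm, e5.symm, e6.symm,
        e7.symm] at hij h
  have t1 : Tendsto (fun p : E × E × E => p.1) (𝓝 (0, 0, 0)) (𝓝 0) := continuous_fst.tendsto _
  have t2 : Tendsto (fun p : E × E × E => p.2.1) (𝓝 (0, 0, 0)) (𝓝 0) :=
    continuous_snd.fst.tendsto _
  have t3 : Tendsto (fun p : E × E × E => p.2.2) (𝓝 (0, 0, 0)) (𝓝 0) :=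
    continuous_snd.snd.tendsto _
  have tf : ∀ i, Tendsto (f i) (𝓝 0) (𝓝 (f i 0)) := fun i => (hf i).1.continuousAt
  have tV : ∀ i, Tendsto (fun a => ENNReal.ofReal (V i a)) (𝓝 0) (𝓝 (ENNReal.ofReal (V i 0))) :=
    fun i => ENNReal.tendsto_ofReal (hV i).continuousAt
  have evB : ∀ᶠ p : E × E × E in 𝓝 (0, 0, 0), ∀ i j k, ¬ Good i j k →
      ENNReal.ofReal (V i p.1) + ENNReal.ofReal (V j p.2.1) + ENNReal.ofReal (V k p.2.2) <
        tripleCost s (f i p.1, f j p.2.1, f k p.2.2) := by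
    simp only [eventually_all]
    intro i j k hg
    refine Tendsto.eventually_lt ((((tV i).comp t1).add ((tV j).comp t2)).add ((tV k).comp t3))
      (((continuous_tripleCost s).tendsto _).comp
        (((tf i).comp t1).prodMk_nhds (((tf j).comp t2).prodMk_nhds ((tf k).comp t3)))) ?_
    exact hcl i j k hg
  have evC : ∀ᶠ p : E × E × E in 𝓝 (0, 0, 0), ∀ i, 0 < V i p.1 ∧ ContinuousAt (V i) p.1 := by
    simp only [eventually_all]
    intro i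
    have h0 : 0 < V i 0 := by
      by_cases hi : i = 0
      · rw [hi, hV00]; norm_num
      · rw [hV0 i hi]; positivity
    refine t1.eventually (p := fun a => 0 < V i a ∧ ContinuousAt (V i) a) ?_
    exact ((hV i).continuousAt.eventually (lt_mem_nhds h0)).and
      (((hV i).eventually (by simp)).mono fun a ha => ha.continuousAt)
  have evD : ∀ᶠ p : E × E × E in 𝓝 (0, 0, 0), ∀ i j, i ≠ j → f i p.1 ≠ f j p.2.1 := by
    simp only [eventually_all]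
    intro i j hij
    have := (((tf i).comp t1).sub ((tf j).comp t2)).eventually_ne (sub_ne_zero.2 (hpne i j hij))
    exact this.mono fun p hp => sub_ne_zero.1 hp
  obtain ⟨r, hr, hrb⟩ := Metric.eventually_nhds_iff_ball.1
    (hi₁.and (hi₂.and (evB.and (evC.and evD))))
  have hball : ∀ a₁ ∈ ball (0 : E) r, ∀ a₂ ∈ ball (0 : E) r, ∀ a₃ ∈ ball (0 : E) r,
      (a₁, a₂, a₃) ∈ ball ((0, 0, 0) : E × E × E) r := fun a₁ h1 a₂ h2 a₃ h3 => by
    rw [← ball_prod_same, ← ball_prod_same]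
    exact ⟨h1, h2, h3⟩
  have hpos : ∀ i, ∀ a ∈ ball (0 : E) r, 0 < V i a := fun i a ha =>
    ((hrb _ (hball a ha a ha a ha)).2.2.2.1 i).1
  have hne : ∀ i j, i ≠ j → ∀ a ∈ ball (0 : E) r, ∀ a' ∈ ball (0 : E) r, f i a ≠ f j a' :=
    fun i j hij a ha a' ha' => (hrb _ (hball a ha a' ha' a ha)).2.2.2.2 i j hij
  have hsum : ∀ i j k, ∀ a₁ ∈ ball (0 : E) r, ∀ a₂ ∈ ball (0 : E) r, ∀ a₃ ∈ ball (0 : E) r,
      ENNReal.ofReal (V i a₁) + ENNReal.ofReal (V j a₂) + ENNReal.ofReal (V k a₃) =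
        ENNReal.ofReal (V i a₁ + V j a₂ + V k a₃) := fun i j k a₁ h1 a₂ h2 a₃ h3 => by
    rw [ENNReal.ofReal_add (add_pos (hpos i _ h1) (hpos j _ h2)).le (hpos k _ h3).le,
      ENNReal.ofReal_add (hpos i _ h1).le (hpos j _ h2).le]
  have hreal : ∀ j k : Fin 5, (j = 1 ∧ k = 2 ∨ j = 3 ∧ k = 4) →
      ∀ a₁ ∈ ball (0 : E) r, ∀ a₂ ∈ ball (0 : E) r, ∀ a₃ ∈ ball (0 : E) r,
      V 0 a₁ + V j a₂ + V k a₃ + ‖a₁ - a₃‖ ^ 2 + ‖f j a₂ - f j a₃‖ ^ 2 ≤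
        rcost s a₁ (f j a₂) (f k a₃) := by
    rintro j k (⟨rfl, rfl⟩ | ⟨rfl, rfl⟩) a₁ h1 a₂ h2 a₃ h3
    · have := (hrb _ (hball a₁ h1 a₂ h2 a₃ h3)).1
      simp only [V, f, Matrix.cons_val] at this ⊢
      linarith
    · have := (hrb _ (hball a₁ h1 a₂ h2 a₃ h3)).2.1
      simp only [V, f, Matrix.cons_val] at this ⊢
      linarith
  have hQ : ∀ j k : Fin 5, (j = 1 ∧ k = 2 ∨ j = 3 ∧ k = 4) →
      ∀ a₁ ∈ ball (0 : E) r, ∀ a₂ ∈ ball (0 : E) r, ∀ a₃ ∈ ball (0 : E) r,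
      (ENNReal.ofReal (V 0 a₁) + ENNReal.ofReal (V j a₂) + ENNReal.ofReal (V k a₃) ≤
        tripleCost s (f 0 a₁, f j a₂, f k a₃)) ∧
      (tripleCost s (f 0 a₁, f j a₂, f k a₃) ≤
        ENNReal.ofReal (V 0 a₁) + ENNReal.ofReal (V j a₂) + ENNReal.ofReal (V k a₃) →
        a₁ = a₃ ∧ f j a₂ = f j a₃) := by
    intro j k hjk a₁ h1 a₂ h2 a₃ h3
    have hj : (0 : Fin 5) ≠ j := by rcases hjk with ⟨rfl, rfl⟩ | ⟨rfl, rfl⟩ <;> decide
    have hk : (0 : Fin 5) ≠ k := by rcases hjk with ⟨rfl, rfl⟩ | ⟨rfl, rfl⟩ <;> decide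
    have hjk' : j ≠ k := by rcases hjk with ⟨rfl, rfl⟩ | ⟨rfl, rfl⟩ <;> decide
    have hr := hreal j k hjk a₁ h1 a₂ h2 a₃ h3
    rw [tripleCost_eq s (hne 0 j hj _ h1 _ h2) (hne 0 k hk _ h1 _ h3) (hne j k hjk' _ h2 _ h3),
      hsum 0 j k a₁ h1 a₂ h2 a₃ h3]
    have hf0 : f 0 a₁ = a₁ := rfl
    rw [hf0]
    refine ⟨ENNReal.ofReal_le_ofReal
      (by nlinarith [sq_nonneg ‖a₁ - a₃‖, sq_nonneg ‖f j a₂ - f j a₃‖]), fun h => ?_⟩
    rw [ENNReal.ofReal_le_ofReal_iff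
      (add_pos (add_pos (hpos 0 _ h1) (hpos j _ h2)) (hpos k _ h3)).le] at h
    have e1 : ‖a₁ - a₃‖ ^ 2 = 0 :=
      le_antisymm (by nlinarith [sq_nonneg ‖f j a₂ - f j a₃‖]) (sq_nonneg _)
    have e2 : ‖f j a₂ - f j a₃‖ ^ 2 = 0 :=
      le_antisymm (by nlinarith [sq_nonneg ‖a₁ - a₃‖]) (sq_nonneg _)
    exact ⟨sub_eq_zero.1 (by simpa using e1), sub_eq_zero.1 (by simpa using e2)⟩
  let P : Fin 5 → Fin 5 → Fin 5 → Prop := fun i j k =>
    ∀ a₁ ∈ ball (0 : E) r, ∀ a₂ ∈ ball (0 : E) r, ∀ a₃ ∈ ball (0 : E) r,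
      ENNReal.ofReal (V i a₁) + ENNReal.ofReal (V j a₂) + ENNReal.ofReal (V k a₃) ≤
        tripleCost s (f i a₁, f j a₂, f k a₃)
  have Pcyc : ∀ {i j k}, P i j k → P j k i := fun {i j k} h a₁ h1 a₂ h2 a₃ h3 => by
    have := h a₃ h3 a₁ h1 a₂ h2
    rw [tripleCost_cyc, add_comm, ← add_assoc]
    exact this
  have Pswap : ∀ {i j k}, P i j k → P i k j := fun {i j k} h a₁ h1 a₂ h2 a₃ h3 => by
    have := h a₁ h1 a₃ h3 a₂ h2
    rw [tripleCost_swap, add_right_comm]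
    exact this
  have P1 : P 0 1 2 := fun a₁ h1 a₂ h2 a₃ h3 => (hQ 1 2 (by simp) a₁ h1 a₂ h2 a₃ h3).1
  have P2 : P 0 3 4 := fun a₁ h1 a₂ h2 a₃ h3 => (hQ 3 4 (by simp) a₁ h1 a₂ h2 a₃ h3).1
  refine ⟨f, f', fun i a => ENNReal.ofReal (V i a), r, hr, rfl, hf, ?_, hne, ?_, ?_, ?_, ?_⟩
  · intro i a ha
    exact (ENNReal.continuous_ofReal.continuousAt.comp
      ((hrb _ (hball a ha a ha a ha)).2.2.2.1 i).2).continuousWithinAt
  · intro i j k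
    by_cases hg : Good i j k
    · simp only [Good, List.mem_cons, Prod.mk.injEq, List.not_mem_nil, or_false] at hg
      rcases hg with ⟨rfl, rfl, rfl⟩ | ⟨rfl, rfl, rfl⟩ | ⟨rfl, rfl, rfl⟩ | ⟨rfl, rfl, rfl⟩ |
        ⟨rfl, rfl, rfl⟩ | ⟨rfl, rfl, rfl⟩ | ⟨rfl, rfl, rfl⟩ | ⟨rfl, rfl, rfl⟩ | ⟨rfl, rfl, rfl⟩ |
        ⟨rfl, rfl, rfl⟩ | ⟨rfl, rfl, rfl⟩ | ⟨rfl, rfl, rfl⟩
      · exact P1
      · exact Pswap P1
      · exact Pswap (Pcyc P1)
      · exact Pcyc P1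
      · exact Pcyc (Pcyc P1)
      · exact Pswap (Pcyc (Pcyc P1))
      · exact P2
      · exact Pswap P2
      · exact Pswap (Pcyc P2)
      · exact Pcyc P2
      · exact Pcyc (Pcyc P2)
      · exact Pswap (Pcyc (Pcyc P2))
    · intro a₁ h1 a₂ h2 a₃ h3
      exact ((hrb _ (hball a₁ h1 a₂ h2 a₃ h3)).2.2.1 i j k hg).le
  · intro a ha
    have := tripleCost_eq s (hne 0 1 (by decide) _ ha _ ha) (hne 0 2 (by decide) _ ha _ ha)
      (hne 1 2 (by decide) _ ha _ ha)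
    rw [hsum 0 1 2 a ha a ha a ha]
    refine Eq.trans ?_ this.symm
    congr 1
    have := he₁ a
    simp only [V, f, Matrix.cons_val, id] at this ⊢
    linarith
  · intro a ha
    have := tripleCost_eq s (hne 0 3 (by decide) _ ha _ ha) (hne 0 4 (by decide) _ ha _ ha)
      (hne 3 4 (by decide) _ ha _ ha)
    rw [hsum 0 3 4 a ha a ha a ha]
    refine Eq.trans ?_ this.symm
    congr 1
    have := he₂ a
    simp only [V, f, Matrix.cons_val, id] at this ⊢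
    linarith
  · intro j k a₁ h1 a₂ h2 a₃ h3 hle
    by_cases hg : Good 0 j k
    · have hg' := good_zero j k hg
      rcases hg' with hg' | hg'
      · obtain ⟨q1, q2⟩ := (hQ j k hg' a₁ h1 a₂ h2 a₃ h3).2 hle
        refine ⟨by rcases hg' with ⟨rfl, rfl⟩ | ⟨rfl, rfl⟩ <;> decide, by rw [q1, q2]⟩
      · obtain ⟨q1, q2⟩ := (hQ k j hg' a₁ h1 a₃ h3 a₂ h2).2 (by
          rw [tripleCost_swap, add_right_comm]; exact hle)
        refine ⟨by rcases hg' with ⟨rfl, rfl⟩ | ⟨rfl, rfl⟩ <;> decide, by rw [q1]⟩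
    · exact absurd hle (not_le.2 ((hrb _ (hball a₁ h1 a₂ h2 a₃ h3)).2.2.1 0 j k hg))

end Crest.Agent.R130
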