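import Crest.Agent.R130.Calc

/-!
The local structure near a collinear configuration `(0, e, -e)`.
-/

set_option autoImplicit false

open Set Filter Metric
open scoped Topology ContDiff RealInnerProductSpace

namespace Crest.Agent.R130

variable {E : Type*} [NormedAddCommGroup E] [InnerProductSpace ℝ E]

/-- the real-valued three-body cost -/
noncomputable def rcost (s : ℝ) (x y z : E) : ℝ :=
  ‖x - y‖ ^ (-s) + ‖x - z‖ ^ (-s) + ‖y - z‖ ^ (-s)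

theorem exists_cle [FiniteDimensional ℝ E] (A : E →L[ℝ] E) (hA : ∀ v, A v = 0 → v = 0) :
    ∃ B : E ≃L[ℝ] E, (B : E →L[ℝ] E) = A := by
  refine ⟨(LinearEquiv.ofInjectiveEndo (A : E →ₗ[ℝ] E)
    ((injective_iff_map_eq_zero _).2 hA)).toContinuousLinearEquiv, ?_⟩
  ext v
  simp

theorem exists_cle3 [FiniteDimensional ℝ E] (A : E × E × E →L[ℝ] E × E × E)
    (hA : ∀ v, A v = 0 → v = 0) :
    ∃ B : (E × E × E) ≃L[ℝ] (E × E × E), (B : E × E × E →L[ℝ] E × E × E) = A := by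
  refine ⟨(LinearEquiv.ofInjectiveEndo (A : E × E × E →ₗ[ℝ] E × E × E)
    ((injective_iff_map_eq_zero _).2 hA)).toContinuousLinearEquiv, ?_⟩
  refine ContinuousLinearMap.ext fun v => ?_
  simp

/-- solving the first-order conditions by the inverse function theorem -/
theorem exists_critical [FiniteDimensional ℝ E] {s : ℝ} (hs : 0 < s) {e : E} (he : ‖e‖ = 1) :
    ∃ L₀ : ℝ, ∀ L : ℝ, L₀ ≤ L → ∃ (b c : E → E) (b' c' : E ≃L[ℝ] E),
      ContDiffAt ℝ ω b 0 ∧ HasFDerivAt b (b' : E →L[ℝ] E) 0 ∧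
      ContDiffAt ℝ ω c 0 ∧ HasFDerivAt c (c' : E →L[ℝ] E) 0 ∧ b 0 = e ∧ c 0 = -e ∧
      ∃ g : E, ∀ᶠ a in 𝓝 (0 : E),
        gradP s (a - b a) + gradP s (a - c a) + L • a = 0 ∧
        -gradP s (a - b a) + gradP s (b a - c a) + L • (b a - e) - g = 0 := by
  have : CompleteSpace E := FiniteDimensional.complete ℝ E
  have he0 : e ≠ 0 := by rintro rfl; simp at he
  set H := hessP s e with hH
  set κ : ℝ := (2 : ℝ) ^ (-s - 2) with hκ
  have hκ0 : 0 < κ := by positivity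
  have hκ1 : κ ≤ 1 := Real.rpow_le_one_of_one_le_of_nonpos (by norm_num) (by linarith)
  have hHi : ∀ x, H x = 0 → x = 0 := hessP_injective hs he
  refine ⟨(3 * ‖H‖ + 1) / κ, fun L hL => ?_⟩
  have hL1 : 3 * ‖H‖ < κ * L := by
    rw [div_le_iff₀ hκ0] at hL; linarith
  have hL0 : 0 < L := by
    by_contra h
    have := mul_nonpos_of_nonneg_of_nonpos hκ0.le (not_lt.1 h)
    linarith [norm_nonneg H]
  have hL2 : 3 * ‖H‖ < L := hL1.trans_le (by nlinarith)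
  set g : E := -gradP s (-e) + gradP s ((2 : ℝ) • e) with hg
  let Φ : E × E × E → E × E × E := fun p =>
    (p.1, gradP s (p.1 - p.2.1) + gradP s (p.1 - p.2.2) + L • p.1,
      -gradP s (p.1 - p.2.1) + gradP s (p.2.1 - p.2.2) + L • (p.2.1 - e) - g)
  let p₀ : E × E × E := (0, e, -e)
  have e1 : p₀.1 - p₀.2.1 = -e := by simp [p₀]
  have e2 : p₀.1 - p₀.2.2 = e := by simp [p₀]
  have e3 : p₀.2.1 - p₀.2.2 = (2 : ℝ) • e := by simp [p₀, two_smul]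
  have he1 : -e ≠ 0 := neg_ne_zero.2 he0
  have he3 : (2 : ℝ) • e ≠ 0 := smul_ne_zero two_ne_zero he0
  let π1 : E × E × E →L[ℝ] E := ContinuousLinearMap.fst ℝ E (E × E)
  let π2 : E × E × E →L[ℝ] E :=
    (ContinuousLinearMap.fst ℝ E E).comp (ContinuousLinearMap.snd ℝ E (E × E))
  let π3 : E × E × E →L[ℝ] E :=
    (ContinuousLinearMap.snd ℝ E E).comp (ContinuousLinearMap.snd ℝ E (E × E))
  have hΦ : ContDiffAt ℝ ω Φ p₀ := by
    have c1 : ContDiffAt ℝ ω (fun p : E × E × E => gradP s (p.1 - p.2.1)) p₀ :=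
      ContDiffAt.comp (g := gradP s) (f := fun p : E × E × E => p.1 - p.2.1) p₀
        (by rw [e1]; exact contDiffAt_gradP s he1) (by fun_prop)
    have c2 : ContDiffAt ℝ ω (fun p : E × E × E => gradP s (p.1 - p.2.2)) p₀ :=
      ContDiffAt.comp (g := gradP s) (f := fun p : E × E × E => p.1 - p.2.2) p₀
        (by rw [e2]; exact contDiffAt_gradP s he0) (by fun_prop)
    have c3 : ContDiffAt ℝ ω (fun p : E × E × E => gradP s (p.2.1 - p.2.2)) p₀ :=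
      ContDiffAt.comp (g := gradP s) (f := fun p : E × E × E => p.2.1 - p.2.2) p₀
        (by rw [e3]; exact contDiffAt_gradP s he3) (by fun_prop)
    refine ContDiffAt.prodMk (by fun_prop) (ContDiffAt.prodMk ?_ ?_)
    · exact (c1.add c2).add (by fun_prop)
    · exact ((c1.neg.add c3).add (by fun_prop)).sub contDiffAt_const
  let A : E × E × E →L[ℝ] E × E × E :=
    π1.prod ((H.comp (π1 - π2) + H.comp (π1 - π3) + L • π1).prod
      (-H.comp (π1 - π2) + (κ • H).comp (π2 - π3) + L • π2))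
  have hA : ∀ p : E × E × E, A p = (p.1, H (p.1 - p.2.1) + H (p.1 - p.2.2) + L • p.1,
      -H (p.1 - p.2.1) + κ • H (p.2.1 - p.2.2) + L • p.2.1) := fun p => rfl
  have hΦ' : HasFDerivAt Φ A p₀ := by
    have d1 : HasFDerivAt (fun p : E × E × E => gradP s (p.1 - p.2.1)) (H.comp (π1 - π2)) p₀ :=
      HasFDerivAt.comp (g := gradP s) (f := fun p : E × E × E => p.1 - p.2.1) p₀
        (by rw [e1, hH, ← hessP_neg]; exact hasFDerivAt_gradP s he1) (π1 - π2).hasFDerivAt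
    have d2 : HasFDerivAt (fun p : E × E × E => gradP s (p.1 - p.2.2)) (H.comp (π1 - π3)) p₀ :=
      HasFDerivAt.comp (g := gradP s) (f := fun p : E × E × E => p.1 - p.2.2) p₀
        (by rw [e2]; exact hasFDerivAt_gradP s he0) (π1 - π3).hasFDerivAt
    have d3 : HasFDerivAt (fun p : E × E × E => gradP s (p.2.1 - p.2.2))
        ((κ • H).comp (π2 - π3)) p₀ :=
      HasFDerivAt.comp (g := gradP s) (f := fun p : E × E × E => p.2.1 - p.2.2) p₀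
        (by rw [e3, hH, hκ, ← hessP_two]; exact hasFDerivAt_gradP s he3) (π2 - π3).hasFDerivAt
    refine π1.hasFDerivAt.prodMk (HasFDerivAt.prodMk ?_ ?_)
    · exact (d1.add d2).add (π1.hasFDerivAt.const_smul L)
    · exact ((d1.neg.add d3).add ((π2.hasFDerivAt.sub_const e).const_smul L)).sub_const g
  obtain ⟨B, hB⟩ := exists_cle3 A (by
    rintro ⟨u, v, w⟩ h
    rw [hA] at h
    simp only [Prod.mk_eq_zero] at h ⊢
    exact ⟨h.1, lin_u hHi hκ0 hκ1 hL2 h.2.1 h.2.2 h.1⟩)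
  rw [← hB] at hΦ'
  have hn : (ω : WithTop ℕ∞) ≠ 0 := by simp
  have hΦ0 : Φ p₀ = (0, 0, 0) := by
    simp only [Φ, e1, e2, e3]
    simp [p₀, gradP_neg, hg]
  set Ψ := hΦ.localInverse hΦ' hn with hΨdef
  have hΨ : ContDiffAt ℝ ω Ψ (0, 0, 0) := hΦ0 ▸ hΦ.to_localInverse hΦ' hn
  have hΨ' : HasFDerivAt Ψ (B.symm : E × E × E →L[ℝ] E × E × E) (0, 0, 0) :=
    hΦ0 ▸ (hΦ.hasStrictFDerivAt' hΦ' hn).to_localInverse.hasFDerivAt
  have hΨ0 : Ψ (0, 0, 0) = p₀ := hΦ0 ▸ hΦ.localInverse_apply_image hΦ' hn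
  have hright : ∀ᶠ q in 𝓝 ((0, 0, 0) : E × E × E), Φ (Ψ q) = q :=
    hΦ0 ▸ (hΦ.hasStrictFDerivAt' hΦ' hn).eventually_right_inverse
  let ι : E →L[ℝ] E × E × E := ContinuousLinearMap.inl ℝ E (E × E)
  have hι0 : ι 0 = (0, 0, 0) := rfl
  have hγ : ContDiffAt ℝ ω (fun a => Ψ (ι a)) 0 :=
    ContDiffAt.comp (g := Ψ) (f := ι) 0 hΨ ι.contDiff.contDiffAt
  have hγ' : HasFDerivAt (fun a => Ψ (ι a))
      ((B.symm : E × E × E →L[ℝ] E × E × E).comp ι) 0 :=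
    HasFDerivAt.comp (g := Ψ) (f := ι) 0 hΨ' ι.hasFDerivAt
  have hBι : ∀ u : E, (B.symm (ι u)).1 = u ∧
      H (u - (B.symm (ι u)).2.1) + H (u - (B.symm (ι u)).2.2) + L • u = 0 ∧
      -H (u - (B.symm (ι u)).2.1) + κ • H ((B.symm (ι u)).2.1 - (B.symm (ι u)).2.2) +
        L • (B.symm (ι u)).2.1 = 0 := fun u => by
    have h1 : A (B.symm (ι u)) = (u, 0, 0) := by
      rw [← hB]; exact B.apply_symm_apply _
    rw [hA] at h1
    simp only [Prod.mk.injEq] at h1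
    obtain ⟨h2, h3, h4⟩ := h1
    rw [h2] at h3 h4
    exact ⟨h2, h3, h4⟩
  obtain ⟨b', hb'⟩ := exists_cle (π2.comp ((B.symm : E × E × E →L[ℝ] E × E × E).comp ι))
    fun u hu => lin_v hHi hκ0 hκ1 hL1 (hBι u).2.1 (hBι u).2.2 hu
  obtain ⟨c', hc'⟩ := exists_cle (π3.comp ((B.symm : E × E × E →L[ℝ] E × E × E).comp ι))
    fun u hu => lin_w hκ0 hκ1 hL2 (hBι u).2.1 (hBι u).2.2 hu
  refine ⟨fun a => π2 (Ψ (ι a)), fun a => π3 (Ψ (ι a)), b', c',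
    π2.contDiff.contDiffAt.comp 0 hγ, hb' ▸ π2.hasFDerivAt.comp 0 hγ',
    π3.contDiff.contDiffAt.comp 0 hγ, hc' ▸ π3.hasFDerivAt.comp 0 hγ', ?_, ?_, g, ?_⟩
  · simp only [hι0, hΨ0]; rfl
  · simp only [hι0, hΨ0]; rfl
  · have ht : Tendsto ι (𝓝 0) (𝓝 (0, 0, 0)) := ι.continuous.tendsto 0
    filter_upwards [ht.eventually hright] with a ha
    have h1 : (Ψ (ι a)).1 = a := congrArg Prod.fst ha
    have h2 := congrArg (fun p => p.2.1) ha
    have h3 := congrArg (fun p => p.2.2) ha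
    simp only [Φ, h1] at h2 h3
    exact ⟨h2, h3⟩

/-- the local dual potentials -/
theorem local_structure [FiniteDimensional ℝ E] {s : ℝ} (hs : 0 < s) {e : E} (he : ‖e‖ = 1) :
    ∃ L₀ : ℝ, ∀ L : ℝ, L₀ ≤ L → ∃ (b c : E → E) (b' c' : E ≃L[ℝ] E),
      ContDiffAt ℝ ω b 0 ∧ HasFDerivAt b (b' : E →L[ℝ] E) 0 ∧
      ContDiffAt ℝ ω c 0 ∧ HasFDerivAt c (c' : E →L[ℝ] E) 0 ∧ b 0 = e ∧ c 0 = -e ∧
      ∃ v w : E → ℝ, ContDiffAt ℝ ω v 0 ∧ ContDiffAt ℝ ω w 0 ∧ v 0 = 0 ∧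
        (∀ a, -(L / 2 * ‖a‖ ^ 2) + v a + w a = rcost s a (b a) (c a)) ∧
        ∀ᶠ p : E × E × E in 𝓝 (0, 0, 0),
          -(L / 2 * ‖p.1‖ ^ 2) + v p.2.1 + w p.2.2 + ‖p.1 - p.2.2‖ ^ 2 +
            ‖b p.2.1 - b p.2.2‖ ^ 2 ≤ rcost s p.1 (b p.2.1) (c p.2.2) := by
  have he0 : e ≠ 0 := by rintro rfl; simp at he
  have he1 : -e ≠ 0 := neg_ne_zero.2 he0
  have he3 : (2 : ℝ) • e ≠ 0 := smul_ne_zero two_ne_zero he0
  obtain ⟨L₀, hL₀⟩ := exists_critical hs he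
  obtain ⟨K₁, hK₁, h₁⟩ := semiconvex s he1
  obtain ⟨K₂, hK₂, h₂⟩ := semiconvex s he0
  obtain ⟨K₃, hK₃, h₃⟩ := semiconvex s he3
  refine ⟨max L₀ (2 * (2 * K₁ + K₂ + K₃ + 1)), fun L hL => ?_⟩
  obtain ⟨b, c, b', c', hb, hb', hc, hc', hb0, hc0, g, hg⟩ := hL₀ L ((le_max_left _ _).trans hL)
  have hLK : 2 * (2 * K₁ + K₂ + K₃ + 1) ≤ L := (le_max_right _ _).trans hL
  let v : E → ℝ := fun a => ⟪g, b a - e⟫ - L / 2 * ‖b a - e‖ ^ 2
  have hv : ContDiffAt ℝ ω v 0 := by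
    have h1 : ContDiffAt ℝ ω (fun a => b a - e) 0 := hb.sub contDiffAt_const
    exact (contDiffAt_const.inner ℝ h1).sub (contDiffAt_const.mul (h1.norm_sq ℝ))
  have hr : ContDiffAt ℝ ω (fun a => rcost s a (b a) (c a)) 0 := by
    have c1 : ContDiffAt ℝ ω (fun a => ‖a - b a‖ ^ (-s)) 0 :=
      ContDiffAt.comp (g := fun x : E => ‖x‖ ^ (-s)) (f := fun a => a - b a) 0
        (contDiffAt_pot _ (by simpa [hb0] using he0)) (contDiffAt_id.sub hb)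
    have c2 : ContDiffAt ℝ ω (fun a => ‖a - c a‖ ^ (-s)) 0 :=
      ContDiffAt.comp (g := fun x : E => ‖x‖ ^ (-s)) (f := fun a => a - c a) 0
        (contDiffAt_pot _ (by simpa [hc0] using he0)) (contDiffAt_id.sub hc)
    have c3 : ContDiffAt ℝ ω (fun a => ‖b a - c a‖ ^ (-s)) 0 :=
      ContDiffAt.comp (g := fun x : E => ‖x‖ ^ (-s)) (f := fun a => b a - c a) 0
        (contDiffAt_pot _ (by simpa [hb0, hc0, ← two_smul ℝ e] using he0)) (hb.sub hc)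
    exact (c1.add c2).add c3
  refine ⟨b, c, b', c', hb, hb', hc, hc', hb0, hc0, v,
    fun a => rcost s a (b a) (c a) + L / 2 * ‖a‖ ^ 2 - v a, hv,
    (hr.add (contDiffAt_const.mul (contDiffAt_id.norm_sq ℝ))).sub hv, by simp [v, hb0],
    fun a => by ring, ?_⟩
  have tb : Tendsto b (𝓝 0) (𝓝 e) := hb0 ▸ hb.continuousAt.tendsto
  have tc : Tendsto c (𝓝 0) (𝓝 (-e)) := hc0 ▸ hc.continuousAt.tendsto
  have t1 : Tendsto (fun p : E × E × E => p.1) (𝓝 (0, 0, 0)) (𝓝 0) := continuous_fst.tendsto _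
  have t2 : Tendsto (fun p : E × E × E => p.2.1) (𝓝 (0, 0, 0)) (𝓝 0) :=
    continuous_snd.fst.tendsto _
  have t3 : Tendsto (fun p : E × E × E => p.2.2) (𝓝 (0, 0, 0)) (𝓝 0) :=
    continuous_snd.snd.tendsto _
  have k1 : Tendsto (fun p : E × E × E => (p.1 - b p.2.1, p.2.2 - b p.2.2)) (𝓝 (0, 0, 0))
      (𝓝 (-e, -e)) := by
    simpa using (t1.sub (tb.comp t2)).prodMk_nhds (t3.sub (tb.comp t3))
  have k2 : Tendsto (fun p : E × E × E => (p.1 - c p.2.2, p.2.2 - c p.2.2)) (𝓝 (0, 0, 0))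
      (𝓝 (e, e)) := by
    simpa using (t1.sub (tc.comp t3)).prodMk_nhds (t3.sub (tc.comp t3))
  have k3 : Tendsto (fun p : E × E × E => (b p.2.1 - c p.2.2, b p.2.2 - c p.2.2)) (𝓝 (0, 0, 0))
      (𝓝 ((2 : ℝ) • e, (2 : ℝ) • e)) := by
    simpa [two_smul] using ((tb.comp t2).sub (tc.comp t3)).prodMk_nhds
      ((tb.comp t3).sub (tc.comp t3))
  filter_upwards [k1.eventually h₁, k2.eventually h₂, k3.eventually h₃, t3.eventually hg]
    with p q1 q2 q3 hp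
  obtain ⟨x, a₂, a⟩ := p
  obtain ⟨g1, g2⟩ := hp
  simp only at q1 q2 q3 g1 g2 ⊢
  simp only [v, rcost]
  set y := b a₂
  set y₀ := b a
  set z := c a
  set ξ := x - a with hξ
  set ζ := y - y₀ with hζ
  have r1 : x - y - (a - y₀) = ξ - ζ := by rw [hξ, hζ]; abel
  have r2 : x - z - (a - z) = ξ := by rw [hξ]; abel
  have r3 : y - z - (y₀ - z) = ζ := by rw [hζ]; abel
  rw [r1] at q1
  rw [r2] at q2
  rw [r3] at q3
  have s1 : ‖x‖ ^ 2 = ‖a‖ ^ 2 + 2 * ⟪a, ξ⟫ + ‖ξ‖ ^ 2 := by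
    rw [← norm_add_sq_real, hξ]; congr 2; abel
  have s2 : ‖y - e‖ ^ 2 = ‖y₀ - e‖ ^ 2 + 2 * ⟪y₀ - e, ζ⟫ + ‖ζ‖ ^ 2 := by
    rw [← norm_add_sq_real, hζ]; congr 2; abel
  have s3 : ⟪g, y - e⟫ = ⟪g, y₀ - e⟫ + ⟪g, ζ⟫ := by
    rw [← inner_add_right, hζ]; congr 1; abel
  have s4 := congrArg (fun t => ⟪t, ξ⟫) g1
  have s5 := congrArg (fun t => ⟪t, ζ⟫) g2
  simp only [inner_add_left, inner_sub_left (_ + _) g, inner_neg_left, real_inner_smul_left,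
    inner_zero_left] at s4 s5
  rw [inner_sub_right] at q1
  have s6 : ‖ξ - ζ‖ ^ 2 ≤ 2 * ‖ξ‖ ^ 2 + 2 * ‖ζ‖ ^ 2 := by
    have := norm_sub_le ξ ζ
    nlinarith [norm_nonneg (ξ - ζ), norm_nonneg ξ, norm_nonneg ζ, sq_nonneg (‖ξ‖ - ‖ζ‖)]
  have s7 := mul_le_mul_of_nonneg_left s6 hK₁
  have s8 : (2 * K₁ + K₂ + 1) * ‖ξ‖ ^ 2 ≤ L / 2 * ‖ξ‖ ^ 2 :=
    mul_le_mul_of_nonneg_right (by linarith) (sq_nonneg _)
  have s9 : (2 * K₁ + K₃ + 1) * ‖ζ‖ ^ 2 ≤ L / 2 * ‖ζ‖ ^ 2 :=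
    mul_le_mul_of_nonneg_right (by linarith) (sq_nonneg _)
  rw [s1, s2, s3]
  nlinarith

end Crest.Agent.R130
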