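import Mathlib

/-!
Pushing a density `ψ²` forward along a local analytic diffeomorphism gives a density `χ²`
with `χ` smooth.
-/

set_option autoImplicit false

open MeasureTheory Set Filter Metric
open scoped ENNReal Topology ContDiff

namespace Crest.Agent.R130

variable {E : Type*} [NormedAddCommGroup E] [NormedSpace ℝ E] [FiniteDimensional ℝ E]

theorem contDiff_det {n : WithTop ℕ∞} : ContDiff ℝ n fun A : E →L[ℝ] E => A.det := by
  classical
  let b := Module.finBasis ℝ E
  have : (fun A : E →L[ℝ] E => A.det) = fun A : E →L[ℝ] E =>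
      ∑ σ : Equiv.Perm (Fin (Module.finrank ℝ E)), ((Equiv.Perm.sign σ : ℤ) : ℝ) *
        ∏ i, (LinearMap.toContinuousLinearMap (b.coord (σ i))) (A (b i)) := by
    funext A
    rw [ContinuousLinearMap.det, ← LinearMap.det_toMatrix b, Matrix.det_apply']
    simp [LinearMap.toMatrix_apply]
  rw [this]
  refine ContDiff.sum fun σ _ => contDiff_const.mul (contDiff_prod fun i _ => ?_)
  exact (LinearMap.toContinuousLinearMap (b.coord (σ i))).contDiff.comp
    (ContinuousLinearMap.apply ℝ E (b i)).contDiff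

theorem push_density [MeasurableSpace E] [BorelSpace E] (μ : Measure E) [μ.IsAddHaarMeasure]
    {f : E → E} {f' : E ≃L[ℝ] E} (hf : ContDiffAt ℝ ω f 0)
    (hf' : HasFDerivAt f (f' : E →L[ℝ] E) 0) :
    ∃ r > 0, InjOn f (ball 0 r) ∧ ContinuousOn f (ball 0 r) ∧
      ∀ ψ : E → ℝ, ContDiff ℝ ∞ ψ → tsupport ψ ⊆ ball 0 r → (∀ x, 0 ≤ ψ x) →
        ∃ χ : E → ℝ, ContDiff ℝ ∞ χ ∧ (∀ y, 0 ≤ χ y) ∧ Function.support χ ⊆ f '' tsupport ψ ∧
          ∀ F : E → E, Measurable F → EqOn F f (tsupport ψ) →
            (μ.withDensity fun x => ENNReal.ofReal (ψ x ^ 2)).map F =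
              μ.withDensity fun y => ENNReal.ofReal (χ y ^ 2) := by
  have : CompleteSpace E := FiniteDimensional.complete ℝ E
  have hn : (ω : WithTop ℕ∞) ≠ 0 := by simp
  set Φ := hf.toOpenPartialHomeomorph f hf' hn with hΦ
  have hΦf : (Φ : E → E) = f := rfl
  have h0 : (0 : E) ∈ Φ.source := hf.mem_toOpenPartialHomeomorph_source hf' hn
  have h0t : f 0 ∈ Φ.target := hf.image_mem_toOpenPartialHomeomorph_target hf' hn
  have hg : ContDiffAt ℝ ω Φ.symm (f 0) := hf.to_localInverse hf' hn
  have hg' : HasFDerivAt Φ.symm (f'.symm : E →L[ℝ] E) (f 0) :=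
    (hf.hasStrictFDerivAt' hf' hn).to_localInverse.hasFDerivAt
  have hdetc : ContinuousAt (fun y => (fderiv ℝ Φ.symm y).det) (f 0) :=
    ContinuousLinearMap.continuous_det.continuousAt.comp
      (hg.fderiv_right (m := 0) (by simp)).continuousAt
  have hdet0 : (fderiv ℝ Φ.symm (f 0)).det ≠ 0 := by
    rw [hg'.fderiv]
    exact (LinearEquiv.isUnit_det' f'.symm.toLinearEquiv).ne_zero
  have hev : ∀ᶠ y in 𝓝 (f 0), y ∈ Φ.target ∧ ContDiffAt ℝ ω Φ.symm y ∧
      (fderiv ℝ Φ.symm y).det ≠ 0 :=
    (Φ.open_target.eventually_mem h0t).and ((hg.eventually (by simp)).and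
      (hdetc.eventually_ne hdet0))
  obtain ⟨V, hV, hVo, hV0⟩ := _root_.eventually_nhds_iff.1 hev
  have hev2 : ∀ᶠ x in 𝓝 (0 : E), x ∈ Φ.source ∧ f x ∈ V :=
    (Φ.open_source.eventually_mem h0).and (hf.continuousAt.eventually (hVo.mem_nhds hV0))
  obtain ⟨r, hr, hrb⟩ := Metric.eventually_nhds_iff_ball.1 hev2
  refine ⟨r, hr, Φ.injOn.mono fun x hx => (hrb x hx).1,
    Φ.continuousOn.mono fun x hx => (hrb x hx).1, fun ψ hψ hψs hψ0 => ?_⟩
  have hcomp : IsCompact (tsupport ψ) :=
    (isCompact_closedBall (0 : E) r).of_isClosed_subset (isClosed_tsupport ψ)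
      (hψs.trans ball_subset_closedBall)
  have hK : IsCompact (f '' tsupport ψ) :=
    hcomp.image_of_continuousOn (Φ.continuousOn.mono fun x hx => (hrb x (hψs hx)).1)
  have hKV : f '' tsupport ψ ⊆ V := by
    rintro _ ⟨x, hx, rfl⟩; exact (hrb x (hψs hx)).2
  let χ₀ : E → ℝ := fun y => ψ (Φ.symm y) * Real.sqrt |(fderiv ℝ Φ.symm y).det|
  have hsupp : Function.support (V.indicator χ₀) ⊆ f '' tsupport ψ := by
    intro y hy
    by_cases hyV : y ∈ V
    · rw [Function.mem_support, indicator_of_mem hyV] at hy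
      refine ⟨Φ.symm y, subset_tsupport _ (left_ne_zero_of_mul hy), ?_⟩
      exact Φ.right_inv (hV y hyV).1
    · rw [Function.mem_support, indicator_of_notMem hyV] at hy
      exact absurd rfl hy
  refine ⟨V.indicator χ₀, ?_, ?_, hsupp, ?_⟩
  · rw [contDiff_iff_contDiffAt]
    intro y
    by_cases hyV : y ∈ V
    · have h1 : ContDiffAt ℝ ∞ Φ.symm y := (hV y hyV).2.1.of_le le_top
      have h2 : ContDiffAt ℝ ∞ (fun y => (fderiv ℝ Φ.symm y).det) y :=
        contDiff_det.contDiffAt.comp y ((hV y hyV).2.1.fderiv_right (m := ∞) le_top)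
      have h3 : ContDiffAt ℝ ∞ χ₀ y :=
        (hψ.contDiffAt.comp y h1).mul
          ((h2.abs (hV y hyV).2.2).sqrt (abs_ne_zero.2 (hV y hyV).2.2))
      refine h3.congr_of_eventuallyEq ?_
      filter_upwards [hVo.mem_nhds hyV] with z hz
      exact indicator_of_mem hz _
    · have hy : y ∈ (f '' tsupport ψ)ᶜ := fun h => hyV (hKV h)
      refine (contDiffAt_const (c := (0 : ℝ))).congr_of_eventuallyEq ?_
      filter_upwards [hK.isClosed.isOpen_compl.mem_nhds hy] with z hz
      by_contra h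
      exact hz (hsupp h)
  · intro y
    exact indicator_nonneg (fun z _ => mul_nonneg (hψ0 _) (Real.sqrt_nonneg _)) y
  · intro F hF hFf
    ext W hW
    rw [Measure.map_apply hF hW, withDensity_apply _ (hF hW), withDensity_apply _ hW,
      ← lintegral_indicator (hF hW), ← lintegral_indicator hW]
    set G : E → ℝ≥0∞ := (F ⁻¹' W).indicator fun x => ENNReal.ofReal (ψ x ^ 2) with hG
    have hcv := lintegral_image_eq_lintegral_abs_det_fderiv_mul μ hVo.measurableSet
      (f := Φ.symm) (f' := fun y => fderiv ℝ Φ.symm y)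
      (fun y hy => ((hV y hy).2.1.differentiableAt (by simp)).hasFDerivAt.hasFDerivWithinAt)
      (Φ.symm.injOn.mono fun y hy => (hV y hy).1) G
    have hGs : Function.support G ⊆ Φ.symm '' V := by
      intro x hx
      have hx' : ψ x ≠ 0 := by
        intro h
        apply hx
        by_cases hxW : x ∈ F ⁻¹' W <;> simp [hG, hxW, h]
      have hx2 := hψs (subset_tsupport _ hx')
      exact ⟨f x, (hrb x hx2).2, Φ.left_inv (hrb x hx2).1⟩
    rw [← setLIntegral_eq_of_support_subset hGs, hcv, ← lintegral_indicator hVo.measurableSet]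
    refine lintegral_congr fun y => ?_
    by_cases hyV : y ∈ V
    · rw [indicator_of_mem hyV]
      have hχ : ENNReal.ofReal (V.indicator χ₀ y ^ 2) =
          ENNReal.ofReal |(fderiv ℝ Φ.symm y).det| * ENNReal.ofReal (ψ (Φ.symm y) ^ 2) := by
        rw [indicator_of_mem hyV, ← ENNReal.ofReal_mul (abs_nonneg _)]
        simp only [χ₀, mul_pow, Real.sq_sqrt (abs_nonneg _)]
        rw [mul_comm]
      by_cases hψy : ψ (Φ.symm y) = 0
      · have : G (Φ.symm y) = 0 := by
          by_cases hxW : Φ.symm y ∈ F ⁻¹' W <;> simp [hG, hxW, hψy]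
        rw [this]
        by_cases hyW : y ∈ W
        · rw [indicator_of_mem hyW, hχ, hψy]; simp
        · rw [indicator_of_notMem hyW]; simp
      · have hFy : F (Φ.symm y) = y := by
          rw [hFf (subset_tsupport _ hψy)]
          exact Φ.right_inv (hV y hyV).1
        by_cases hyW : y ∈ W
        · have : Φ.symm y ∈ F ⁻¹' W := by rw [mem_preimage, hFy]; exact hyW
          rw [indicator_of_mem hyW, hχ, hG, indicator_of_mem this]
        · have : Φ.symm y ∉ F ⁻¹' W := by rw [mem_preimage, hFy]; exact hyW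
          rw [indicator_of_notMem hyW, hG, indicator_of_notMem this]; simp
    · rw [indicator_of_notMem hyV]
      by_cases hyW : y ∈ W
      · rw [indicator_of_mem hyW, indicator_of_notMem hyV]; simp
      · rw [indicator_of_notMem hyW]

end Crest.Agent.R130
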