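import Crest.Agent.R130.Geometry
import Crest.Agent.R130.Bowtie
import Crest.Agent.R130.Push

/-!
Assembly of the counterexample.
-/

set_option autoImplicit false

open MeasureTheory Set Filter Metric
open scoped ENNReal Topology ContDiff RealInnerProductSpace
open Crest.AnalysisR.OT

namespace Crest.Agent.R130

variable {E : Type*} [NormedAddCommGroup E] [InnerProductSpace ℝ E] [FiniteDimensional ℝ E]
  [MeasurableSpace E] [BorelSpace E]

theorem exists_bump (μ : Measure E) [μ.IsAddHaarMeasure] {r : ℝ} (hr : 0 < r) :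
    ∃ ψ : E → ℝ, ContDiff ℝ ∞ ψ ∧ tsupport ψ ⊆ ball 0 r ∧ (∀ x, 0 ≤ ψ x) ∧
      6 * (μ.withDensity fun x => ENNReal.ofReal (ψ x ^ 2)) univ = 1 := by
  let φ : ContDiffBump (0 : E) := ⟨r / 4, r / 2, by positivity, by linarith⟩
  have hc : Continuous fun x => φ x ^ 2 := φ.continuous.pow 2
  have hcs : HasCompactSupport fun x => φ x ^ 2 :=
    φ.hasCompactSupport.comp_left (g := fun t : ℝ => t ^ 2) (by simp)
  have hint : Integrable (fun x => φ x ^ 2) μ := hc.integrable_of_hasCompactSupport hcs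
  have hpos : 0 < ∫ x, φ x ^ 2 ∂μ :=
    hc.integral_pos_of_hasCompactSupport_nonneg_nonzero hcs (fun x => sq_nonneg _) (x := 0)
      (by rw [φ.one_of_mem_closedBall (mem_closedBall_self φ.rIn_pos.le)]; simp)
  set m := ∫ x, φ x ^ 2 ∂μ
  refine ⟨fun x => (Real.sqrt (6 * m))⁻¹ * φ x, contDiff_const.mul φ.contDiff, ?_,
    fun x => mul_nonneg (by positivity) φ.nonneg, ?_⟩
  · refine (tsupport_mul_subset_right (f := fun _ => (Real.sqrt (6 * m))⁻¹)).trans ?_
    rw [φ.tsupport_eq]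
    exact closedBall_subset_ball (half_lt_self hr)
  · rw [withDensity_apply _ MeasurableSet.univ, Measure.restrict_univ,
      ← ofReal_integral_eq_lintegral_ofReal]
    · simp only [mul_pow, inv_pow, Real.sq_sqrt (by positivity : 0 ≤ 6 * m)]
      rw [integral_const_mul, ← ENNReal.ofReal_ofNat 6, ← ENNReal.ofReal_mul (by norm_num)]
      rw [← ENNReal.ofReal_one]
      congr 1
      field_simp
      rfl
    · simp only [mul_pow]
      exact hint.const_mul _
    · exact Eventually.of_forall fun x => sq_nonneg _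

theorem main (μ₀ : Measure E) [μ₀.IsAddHaarMeasure] {s : ℝ} (hs : 0 < s) {e₁ e₂ : E}
    (h₁ : ‖e₁‖ = 1) (h₂ : ‖e₂‖ = 1) (h₁₂ : ⟪e₁, e₂⟫ = 0) :
    ∃ ρ : E → ℝ, (∀ x, 0 ≤ ρ x) ∧ ContDiff ℝ ∞ ρ ∧ HasCompactSupport ρ ∧
      ContDiff ℝ ∞ (fun x => Real.sqrt (ρ x)) ∧ ∫ x, ρ x ∂μ₀ = 1 ∧
      ∀ μ : Measure E, μ = μ₀.withDensity (fun x => ENNReal.ofReal (ρ x)) →
      ∃ π₀ : Measure (E × E × E),
        IsCoupling₃ μ π₀ ∧ ∫⁻ p, tripleCost s p ∂π₀ < ⊤ ∧
        (∀ π : Measure (E × E × E), IsCoupling₃ μ π →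
          ∫⁻ p, tripleCost s p ∂π₀ ≤ ∫⁻ p, tripleCost s p ∂π) ∧
        (∀ T₂ T₃ : E → E, Measurable T₂ → Measurable T₃ →
          μ.map T₂ = μ → μ.map T₃ = μ →
          ∫⁻ p, tripleCost s p ∂π₀ < ∫⁻ x, tripleCost s (x, T₂ x, T₃ x) ∂μ) ∧
        (∀ ε : ℝ≥0∞, 0 < ε → ∃ T₂ T₃ : E → E, Measurable T₂ ∧ Measurable T₃ ∧
          μ.map T₂ = μ ∧ μ.map T₃ = μ ∧
          ∫⁻ x, tripleCost s (x, T₂ x, T₃ x) ∂μ < ∫⁻ p, tripleCost s p ∂π₀ + ε) := by
  classical
  have : CompleteSpace E := FiniteDimensional.complete ℝ E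
  have : Nontrivial E := ⟨⟨e₁, 0, by rintro rfl; simp at h₁⟩⟩
  obtain ⟨f, f', v, r₀, hr₀, hf0, hf, hvc, hne, hineq, heq1, heq2, hrig⟩ :=
    geometry hs h₁ h₂ h₁₂
  choose R hR hRinj hRc hRp using fun i => push_density μ₀ (hf i).1 (hf i).2
  obtain ⟨r, hr, hrr₀, hrR⟩ : ∃ r > 0, r ≤ r₀ ∧ ∀ i, r ≤ R i := by
    obtain ⟨i₀, hi₀⟩ := Finite.exists_min R
    exact ⟨min r₀ (R i₀), lt_min hr₀ (hR i₀), min_le_left _ _,
      fun i => (min_le_right _ _).trans (hi₀ i)⟩
  obtain ⟨ψ, hψ, hψs, hψ0, hψ1⟩ := exists_bump μ₀ hr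
  set η := μ₀.withDensity fun x => ENNReal.ofReal (ψ x ^ 2) with hηdef
  set K := tsupport ψ with hKdef
  have hK0 : K ⊆ ball 0 r₀ := hψs.trans (ball_subset_ball hrr₀)
  have hKR : ∀ i, K ⊆ ball 0 (R i) := fun i => hψs.trans (ball_subset_ball (hrR i))
  have hK : IsCompact K :=
    (isCompact_closedBall (0 : E) r).of_isClosed_subset (isClosed_tsupport ψ)
      (hψs.trans ball_subset_closedBall)
  have hKm : MeasurableSet K := hK.isClosed.measurableSet
  choose χ hχ hχ0 hχs hχm using fun i => hRp i ψ hψ (hKR i) hψ0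
  let F : Fin 5 → E → E := fun i => K.piecewise (f i) id
  have hF : ∀ i, Measurable (F i) := fun i =>
    ((hRc i).mono (hKR i)).measurable_piecewise continuousOn_id hKm
  have hFf : ∀ i, EqOn (F i) (f i) K := fun i => piecewise_eqOn _ _ _
  have hF0 : F 0 = id := by simp only [F, hf0, piecewise_same]
  let V : Fin 5 → E → ℝ≥0∞ := fun i => K.piecewise (v i) 0
  have hV : ∀ i, Measurable (V i) := fun i =>
    ((hvc i).mono hK0).measurable_piecewise continuousOn_const hKm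
  have hVv : ∀ i, EqOn (V i) (v i) K := fun i => piecewise_eqOn _ _ _
  have hmap : ∀ i, η.map (F i) = μ₀.withDensity fun y => ENNReal.ofReal (χ i y ^ 2) :=
    fun i => hχm i (F i) (hF i) (hFf i)
  have hmap0 : η = μ₀.withDensity fun y => ENNReal.ofReal (χ 0 y ^ 2) := by
    simpa [hF0] using hmap 0
  have hdisj : ∀ i j, i ≠ j → ∀ y, χ i y * χ j y = 0 := by
    intro i j hij y
    by_contra h
    obtain ⟨a, ha, e1⟩ := hχs i (left_ne_zero_of_mul h)
    obtain ⟨a', ha', e2⟩ := hχs j (right_ne_zero_of_mul h)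
    exact hne i j hij a (hK0 ha) a' (hK0 ha') (e1.trans e2.symm)
  let Ψ : E → ℝ := fun y => Real.sqrt 2 * χ 0 y + χ 1 y + χ 2 y + χ 3 y + χ 4 y
  have hΨ : ContDiff ℝ ∞ Ψ :=
    ((((contDiff_const.mul (hχ 0)).add (hχ 1)).add (hχ 2)).add (hχ 3)).add (hχ 4)
  have hΨ0 : ∀ y, 0 ≤ Ψ y := fun y => by
    have := fun i => hχ0 i y
    have h0 := hχ0 0 y; have h1 := hχ0 1 y; have h2 := hχ0 2 y; have h3 := hχ0 3 y
    have h4 := hχ0 4 y
    simp only [Ψ]; positivity
  have hΨsq : ∀ y, Ψ y ^ 2 =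
      (χ 0 y ^ 2 + χ 1 y ^ 2 + χ 2 y ^ 2) + (χ 0 y ^ 2 + χ 3 y ^ 2 + χ 4 y ^ 2) := fun y => by
    have d01 := hdisj 0 1 (by decide) y
    have d02 := hdisj 0 2 (by decide) y
    have d03 := hdisj 0 3 (by decide) y
    have d04 := hdisj 0 4 (by decide) y
    have d12 := hdisj 1 2 (by decide) y
    have d13 := hdisj 1 3 (by decide) y
    have d14 := hdisj 1 4 (by decide) y
    have d23 := hdisj 2 3 (by decide) y
    have d24 := hdisj 2 4 (by decide) y
    have d34 := hdisj 3 4 (by decide) y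
    have hs2 : Real.sqrt 2 ^ 2 = 2 := Real.sq_sqrt zero_le_two
    simp only [Ψ]
    linear_combination (χ 0 y ^ 2) * hs2 + 2 * Real.sqrt 2 * (d01 + d02 + d03 + d04) +
      2 * (d12 + d13 + d14 + d23 + d24 + d34)
  have hχc : ∀ i, HasCompactSupport (χ i) := fun i =>
    HasCompactSupport.of_support_subset_isCompact
      (hK.image_of_continuousOn ((hRc i).mono (hKR i))) (hχs i)
  have hΨc : HasCompactSupport Ψ :=
    (((((hχc 0).mul_left (f := fun _ => Real.sqrt 2)).add (hχc 1)).add (hχc 2)).add (hχc 3)).add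
      (hχc 4)
  have hχmeas : ∀ i, Measurable fun y => ENNReal.ofReal (χ i y ^ 2) := fun i =>
    ((hχ i).continuous.pow 2).measurable.ennreal_ofReal
  have hμ : (μ₀.withDensity fun x => ENNReal.ofReal (Ψ x ^ 2)) =
      (η + η.map (F 1) + η.map (F 2)) + (η + η.map (F 3) + η.map (F 4)) := by
    rw [hmap, hmap, hmap, hmap, hmap0, ← withDensity_add_left (hχmeas 0),
      ← withDensity_add_right _ (hχmeas 2), ← withDensity_add_left (hχmeas 0),
      ← withDensity_add_right _ (hχmeas 4),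
      ← withDensity_add_right _ (((hχmeas 0).add (hχmeas 3)).add (hχmeas 4))]
    congr 1
    funext y
    simp only [Pi.add_apply]
    rw [hΨsq, ENNReal.ofReal_add (by positivity) (by positivity),
      ENNReal.ofReal_add (by positivity) (by positivity),
      ENNReal.ofReal_add (by positivity) (by positivity),
      ENNReal.ofReal_add (by positivity) (by positivity),
      ENNReal.ofReal_add (by positivity) (by positivity)]
  have hηfin : η univ ≠ ⊤ := by
    intro h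
    rw [h] at hψ1
    simp at hψ1
  have hη0 : η ≠ 0 := by
    intro h
    rw [h] at hψ1
    simp at hψ1
  have : IsFiniteMeasure η := ⟨hηfin.lt_top⟩
  have : NullSingletonClass η :=
    ⟨fun x => withDensity_absolutelyContinuous μ₀ _ (measure_singleton x)⟩
  have hηK : ∀ᵐ a ∂η, a ∈ K := by
    have hmeas : Measurable fun x => ENNReal.ofReal (ψ x ^ 2) :=
      (hψ.continuous.pow 2).measurable.ennreal_ofReal
    rw [hηdef, ae_withDensity_iff hmeas]
    refine Eventually.of_forall fun x hx => subset_tsupport _ fun h => hx ?_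
    simp [h]
  refine ⟨fun y => Ψ y ^ 2, fun y => sq_nonneg _, hΨ.pow 2,
    hΨc.comp_left (g := fun t : ℝ => t ^ 2) (by simp), ?_, ?_, ?_⟩
  · simpa only [Real.sqrt_sq (hΨ0 _)] using hΨ
  · rw [integral_eq_lintegral_of_nonneg_ae (Eventually.of_forall fun y => sq_nonneg _)
      (hΨ.continuous.pow 2).aestronglyMeasurable]
    have := congrArg (fun m : Measure E => m univ) hμ
    simp only [withDensity_apply _ MeasurableSet.univ, Measure.restrict_univ, Measure.add_apply,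
      Measure.map_apply (hF _) MeasurableSet.univ, preimage_univ] at this
    rw [this, show η univ + η univ + η univ + (η univ + η univ + η univ) = 6 * η univ by ring,
      hψ1]
    simp
  · intro μ hμ'
    refine bowtie s hK η hη0 hηK F hF hF0 (fun i => ((hRc i).mono (hKR i)).congr (hFf i)) ?_ V hV
      ?_ ?_ ?_ ?_ μ (hμ'.trans hμ)
    · intro i j a ha a' ha' h
      rw [hFf i ha, hFf j ha'] at h
      have hij : i = j := by
        by_contra hij
        exact hne i j hij a (hK0 ha) a' (hK0 ha') h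
      subst hij
      exact ⟨rfl, hRinj i (hKR i ha) (hKR i ha') h⟩
    · intro i j k a₁ h1 a₂ h2 a₃ h3
      rw [hVv i h1, hVv j h2, hVv k h3, hFf i h1, hFf j h2, hFf k h3]
      exact hineq i j k _ (hK0 h1) _ (hK0 h2) _ (hK0 h3)
    · intro a ha
      rw [hVv 0 ha, hVv 1 ha, hVv 2 ha, hFf 1 ha, hFf 2 ha]
      exact heq1 a (hK0 ha)
    · intro a ha
      rw [hVv 0 ha, hVv 3 ha, hVv 4 ha, hFf 3 ha, hFf 4 ha]
      exact heq2 a (hK0 ha)
    · intro j k a₁ h1 a₂ h2 a₃ h3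
      rw [hVv 0 h1, hVv j h2, hVv k h3, hFf j h2, hFf k h3]
      intro h
      obtain ⟨q1, q2⟩ := hrig j k _ (hK0 h1) _ (hK0 h2) _ (hK0 h3) h
      exact ⟨q1, hRinj j (hKR j h2) (hKR j h1) q2⟩

end Crest.Agent.R130
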